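import Mathlib

/-!
# Length computations for Hom modules
-/

universe u v

namespace Vale.Agent.P195

variable (k : Type v) [CommRing k] {R : Type u} [Ring R] [Algebra k R]

section maps

variable {A B Y Y' : Type*} [AddCommGroup A] [Module R A] [AddCommGroup B] [Module R B]
  [AddCommGroup Y] [Module R Y] [Module k Y] [IsScalarTower k R Y]
  [AddCommGroup Y'] [Module R Y'] [Module k Y'] [IsScalarTower k R Y']

/-- precomposition as a `k`-linear map -/
def preC (Y : Type*) [AddCommGroup Y] [Module R Y] [Module k Y] [IsScalarTower k R Y]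
    (f : A →ₗ[R] B) : (B →ₗ[R] Y) →ₗ[k] (A →ₗ[R] Y) where
  toFun g := g.comp f
  map_add' _ _ := LinearMap.add_comp _ _ _
  map_smul' _ _ := LinearMap.smul_comp _ _ _

/-- postcomposition as a `k`-linear map -/
def postC (A : Type*) [AddCommGroup A] [Module R A]
    (f : Y →ₗ[R] Y') : (A →ₗ[R] Y) →ₗ[k] (A →ₗ[R] Y') where
  toFun g := f.comp g
  map_add' _ _ := LinearMap.comp_add _ _ _
  map_smul' c g := by
    ext a
    simp [LinearMap.map_smul_of_tower]

@[simp] theorem preC_apply (f : A →ₗ[R] B) (g : B →ₗ[R] Y) : preC k Y f g = g.comp f := rfl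
@[simp] theorem postC_apply (f : Y →ₗ[R] Y') (g : A →ₗ[R] Y) : postC k A f g = f.comp g := rfl

end maps

section lemmas

variable {K P X Y W : Type*} [AddCommGroup K] [Module R K] [AddCommGroup P] [Module R P]
  [AddCommGroup X] [Module R X]
  [AddCommGroup Y] [Module R Y] [Module k Y] [IsScalarTower k R Y]
  [AddCommGroup W] [Module R W] [Module k W] [IsScalarTower k R W]

/-- K1 -/
theorem length_hom_add (ι : K →ₗ[R] P) (π : P →ₗ[R] X) (hπ : Function.Surjective π)
    (hex : Function.Exact ι π)
    (hext : ∀ h : K →ₗ[R] Y, ∃ g : P →ₗ[R] Y, g.comp ι = h) :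
    Module.length k (P →ₗ[R] Y) =
      Module.length k (X →ₗ[R] Y) + Module.length k (K →ₗ[R] Y) := by
  refine Module.length_eq_add_of_exact (preC k Y π) (preC k Y ι) ?_ ?_ ?_
  · intro g₁ g₂ h
    ext x
    obtain ⟨p, rfl⟩ := hπ x
    exact congrArg (fun f : P →ₗ[R] Y => f p) h
  · intro h
    obtain ⟨g, hg⟩ := hext h
    exact ⟨g, hg⟩
  · intro g
    constructor
    · intro hg
      have hker : LinearMap.ker π ≤ LinearMap.ker g := by
        intro p hp
        obtain ⟨κ, rfl⟩ := (hex p).mp hp
        exact congrArg (fun f : K →ₗ[R] Y => f κ) hg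
      refine ⟨(LinearMap.ker π).liftQ g hker ∘ₗ
        (π.quotKerEquivOfSurjective hπ).symm.toLinearMap, ?_⟩
      ext p
      simp only [preC_apply, LinearMap.comp_apply, LinearEquiv.coe_coe]
      have : (π.quotKerEquivOfSurjective hπ).symm (π p) = (LinearMap.ker π).mkQ p := by
        rw [LinearEquiv.symm_apply_eq]
        rfl
      rw [this]
      simp
    · rintro ⟨g', rfl⟩
      ext κ
      simp only [preC_apply, LinearMap.comp_apply, LinearMap.zero_apply]
      rw [hex.apply_apply_eq_zero, map_zero]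

/-- K2 -/
theorem length_hom_proj [Module.Projective R P] (N : Submodule R Y) :
    Module.length k (P →ₗ[R] Y) =
      Module.length k (P →ₗ[R] N) + Module.length k (P →ₗ[R] (Y ⧸ N)) := by
  refine Module.length_eq_add_of_exact (postC k P N.subtype) (postC k P N.mkQ) ?_ ?_ ?_
  · intro g₁ g₂ h
    ext p
    exact congrArg (fun f : P →ₗ[R] Y => f p) h
  · intro h
    obtain ⟨g, hg⟩ := Module.projective_lifting_property N.mkQ h N.mkQ_surjective
    exact ⟨g, hg⟩
  · intro g
    constructor
    · intro hg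
      have hmem : ∀ p, g p ∈ N := by
        intro p
        have := congrArg (fun f : P →ₗ[R] (Y ⧸ N) => f p) hg
        simpa using this
      exact ⟨g.codRestrict N hmem, by ext p; simp⟩
    · rintro ⟨g', rfl⟩
      ext p
      simp

/-- K3 -/
theorem length_hom_cover (π : P →ₗ[R] X) (hπ : Function.Surjective π)
    (hker : LinearMap.ker π ≤ Ring.jacobson R • ⊤)
    (hW : ∀ r ∈ Ring.jacobson R, ∀ w : W, r • w = 0) :
    Module.length k (P →ₗ[R] W) = Module.length k (X →ₗ[R] W) := by
  symm
  refine (LinearEquiv.ofBijective (preC k W π) ⟨?_, ?_⟩).length_eq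
  · intro g₁ g₂ h
    ext x
    obtain ⟨p, rfl⟩ := hπ x
    exact congrArg (fun f : P →ₗ[R] W => f p) h
  · intro g
    have hJ : (Ring.jacobson R • ⊤ : Submodule R P) ≤ LinearMap.ker g := by
      rw [Submodule.smul_le]
      intro r hr p _
      rw [LinearMap.mem_ker, map_smul, hW r hr]
    have hker' : LinearMap.ker π ≤ LinearMap.ker g := hker.trans hJ
    refine ⟨(LinearMap.ker π).liftQ g hker' ∘ₗ
        (π.quotKerEquivOfSurjective hπ).symm.toLinearMap, ?_⟩
    ext p
    simp only [preC_apply, LinearMap.comp_apply, LinearEquiv.coe_coe]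
    have : (π.quotKerEquivOfSurjective hπ).symm (π p) = (LinearMap.ker π).mkQ p := by
      rw [LinearEquiv.symm_apply_eq]
      rfl
    rw [this]
    simp

/-- K4 -/
theorem length_hom_sub (N : Submodule R Y) (h : ∀ (g : K →ₗ[R] Y) (x : K), g x ∈ N) :
    Module.length k (K →ₗ[R] Y) = Module.length k (K →ₗ[R] N) := by
  symm
  refine (LinearEquiv.ofBijective (postC k K N.subtype) ⟨?_, ?_⟩).length_eq
  · intro g₁ g₂ h
    ext p
    exact congrArg (fun f : K →ₗ[R] Y => f p) h
  · intro g
    exact ⟨g.codRestrict N (h g), by ext p; simp⟩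

/-- K5 -/
theorem length_hom_lt (N : Submodule R Y) (hN : N ≠ ⊤)
    (hfin : Module.length k (Y →ₗ[R] Y) ≠ ⊤) :
    Module.length k (Y →ₗ[R] N) < Module.length k (Y →ₗ[R] Y) := by
  have hinj : Function.Injective (postC k Y N.subtype) := by
    intro g₁ g₂ h
    ext p
    exact congrArg (fun f : Y →ₗ[R] Y => f p) h
  have hex := Module.length_eq_add_of_exact (postC k Y N.subtype)
    (LinearMap.range (postC k Y N.subtype)).mkQ hinj (Submodule.mkQ_surjective _)
    (by
      intro g
      rw [Submodule.mkQ_apply, Submodule.Quotient.mk_eq_zero]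
      rfl)
  have hpos : 0 < Module.length k
      ((Y →ₗ[R] Y) ⧸ LinearMap.range (postC k Y N.subtype)) := by
    rw [Module.length_pos_iff]
    refine ⟨⟨Submodule.Quotient.mk LinearMap.id, 0, ?_⟩⟩
    intro h0
    rw [Submodule.Quotient.mk_eq_zero] at h0
    obtain ⟨g, hg⟩ := h0
    apply hN
    rw [eq_top_iff]
    intro y _
    have := congrArg (fun f : Y →ₗ[R] Y => f y) hg
    simp only [postC_apply, LinearMap.comp_apply, Submodule.subtype_apply,
      LinearMap.id_apply] at this
    rw [← this]
    exact (g y).2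
  rw [hex] at hfin ⊢
  have hfin1 : Module.length k (Y →ₗ[R] N) ≠ ⊤ := fun h => hfin (by rw [h]; simp)
  simpa using ENat.add_lt_add_of_le_of_lt hfin1 le_rfl hpos

end lemmas

end Vale.Agent.P195
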