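import Mathlib

/-!
# Projective covers over (left) Artinian rings
-/

universe u

namespace Vale.Agent.P195

variable {R : Type u} [Ring R]

/-- A module killed by the Jacobson radical of a semiprimary ring is semisimple. -/
theorem isSemisimple_of_jac_smul [IsSemiprimaryRing R] (W : Type*) [AddCommGroup W] [Module R W]
    (h : ∀ r ∈ Ring.jacobson R, ∀ w : W, r • w = 0) : IsSemisimpleModule R W := by
  have hT : Module.IsTorsionBySet R W (Ring.jacobson R : Set R) := by
    intro w r
    exact h r.1 r.2 w
  let _ := hT.module
  exact (hT.semilinearMap.isSemisimpleModule_iff_of_bijective Function.bijective_id).2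
    inferInstance

theorem jac_smul_quot (P : Type*) [AddCommGroup P] [Module R P] :
    ∀ r ∈ Ring.jacobson R, ∀ w : P ⧸ (Ring.jacobson R • ⊤ : Submodule R P), r • w = 0 := by
  intro r hr w
  obtain ⟨p, rfl⟩ := Submodule.Quotient.mk_surjective _ w
  rw [← Submodule.Quotient.mk_smul, Submodule.Quotient.mk_eq_zero]
  exact Submodule.smul_mem_smul hr trivial

theorem exists_cover_aux [IsArtinianRing R] (X : Type u) [AddCommGroup X] [Module R X] (n : ℕ) :
    ∀ (P : Type u) [AddCommGroup P] [Module R P] [Module.Projective R P] [Module.Finite R P]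
      (π : P →ₗ[R] X), Function.Surjective π → Module.length R P = n →
      ∃ (Q : ModuleCat.{u} R) (ρ : Q →ₗ[R] X), Module.Projective R Q ∧ Module.Finite R Q ∧
        Function.Surjective ρ ∧ LinearMap.ker ρ ≤ Ring.jacobson R • ⊤ := by
  induction n using Nat.strong_induction_on with
  | _ n ih =>
    intro P _ _ _ _ π hπ hn
    by_cases hK : LinearMap.ker π ≤ Ring.jacobson R • ⊤
    · exact ⟨ModuleCat.of R P, π, inferInstance, inferInstance, hπ, hK⟩
    · -- the non-minimal case
      have hart : IsArtinian R P := inferInstance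
      have hnoe : IsNoetherian R P := inferInstance
      set JP : Submodule R P := Ring.jacobson R • ⊤ with hJP
      have hss : IsSemisimpleModule R (P ⧸ JP) := isSemisimple_of_jac_smul _ (jac_smul_quot P)
      set Kb : Submodule R (P ⧸ JP) := (LinearMap.ker π).map JP.mkQ with hKb
      obtain ⟨Nb, hNb⟩ := exists_isCompl Kb
      set N : Submodule R P := Nb.comap JP.mkQ with hN
      have hNtop : N ≠ ⊤ := by
        intro htop
        have h1 : Nb = ⊤ := by
          rw [eq_top_iff]
          intro y _
          obtain ⟨p, rfl⟩ := JP.mkQ_surjective y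
          have : p ∈ N := htop ▸ Submodule.mem_top
          exact this
        have h2 : Kb = ⊥ := by
          have := hNb.inf_eq_bot
          rwa [h1, inf_top_eq] at this
        apply hK
        intro x hx
        have : JP.mkQ x ∈ Kb := Submodule.mem_map_of_mem hx
        rw [h2, Submodule.mem_bot, Submodule.mkQ_apply, Submodule.Quotient.mk_eq_zero] at this
        exact this
      have hsurjN : Function.Surjective (π.comp N.subtype) := by
        intro x
        obtain ⟨p, rfl⟩ := hπ x
        have : JP.mkQ p ∈ Kb ⊔ Nb := hNb.sup_eq_top ▸ Submodule.mem_top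
        obtain ⟨a, ha, b, hb, hab⟩ := Submodule.mem_sup.mp this
        obtain ⟨κ, hκ, rfl⟩ := Submodule.mem_map.mp ha
        have hmem : p - κ ∈ N := by
          change JP.mkQ (p - κ) ∈ Nb
          rw [map_sub, ← hab]
          simpa using hb
        refine ⟨⟨p - κ, hmem⟩, ?_⟩
        have hκ0 : π κ = 0 := hκ
        simp [hκ0]
      obtain ⟨φ, hφ⟩ := Module.projective_lifting_property (π.comp N.subtype) π hsurjN
      set ψ : Module.End R P := N.subtype.comp φ with hψ
      have hπψ : π.comp ψ = π := by rw [hψ, ← LinearMap.comp_assoc, hφ]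
      have hπψpow : ∀ m : ℕ, π.comp (ψ ^ m) = π := by
        intro m
        induction m with
        | zero => simp [Module.End.one_eq_id]
        | succ m ihm =>
          rw [pow_succ', Module.End.mul_eq_comp, ← LinearMap.comp_assoc, hπψ, ihm]
      obtain ⟨m, hm⟩ := (ψ.eventually_isCompl_ker_pow_range_pow.and
        (Filter.eventually_ge_atTop 1)).exists
      obtain ⟨hcompl, hm1⟩ := hm
      set P' : Submodule R P := LinearMap.range (ψ ^ m) with hP'
      have hP'N : P' ≤ N := by
        rintro _ ⟨y, rfl⟩
        obtain ⟨m', rfl⟩ : ∃ m', m = m' + 1 := ⟨m - 1, by omega⟩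
        rw [pow_succ', Module.End.mul_apply]
        exact (φ _).2
      have hP'top : P' ≠ ⊤ := fun h => hNtop (eq_top_iff.mpr (h ▸ hP'N))
      have hproj : Module.Projective R P' :=
        Module.Projective.of_split P'.subtype (P'.projectionOnto _ hcompl.symm)
          (Submodule.projectionOnto_comp_subtype hcompl.symm)
      have hlt : Module.length R P' < Module.length R P := Submodule.length_lt hP'top
      have hfin : Module.length R P' ≠ ⊤ := ne_top_of_lt hlt
      obtain ⟨n', hn'⟩ := ENat.ne_top_iff_exists.mp hfin
      have hn'lt : n' < n := by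
        rw [← hn', hn] at hlt
        exact_mod_cast hlt
      refine ih n' hn'lt P' (π.comp P'.subtype) ?_ hn'.symm
      intro x
      obtain ⟨p, rfl⟩ := hπ x
      refine ⟨⟨(ψ ^ m) p, ⟨p, rfl⟩⟩, ?_⟩
      have := congrArg (fun f => f p) (hπψpow m)
      simpa using this

theorem exists_cover [IsArtinianRing R] (X : Type u) [AddCommGroup X] [Module R X]
    [Module.Finite R X] :
    ∃ (Q : ModuleCat.{u} R) (ρ : Q →ₗ[R] X), Module.Projective R Q ∧ Module.Finite R Q ∧
        Function.Surjective ρ ∧ LinearMap.ker ρ ≤ Ring.jacobson R • ⊤ := by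
  obtain ⟨m, p, hp⟩ := Module.Finite.exists_fin' R X
  have hnoe : IsNoetherian R (Fin m → R) := inferInstance
  have hfin : Module.length R (Fin m → R) ≠ ⊤ := Module.length_ne_top
  obtain ⟨n, hn⟩ := ENat.ne_top_iff_exists.mp hfin
  exact exists_cover_aux X n (Fin m → R) p hp hn.symm

end Vale.Agent.P195
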