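import Mathlib
import Vale.Agent.P195.Cover

/-!
# Local (possibly noncommutative) Artinian rings: free covers
-/

universe u

namespace Vale.Agent.P195

variable {R : Type u} [Ring R]

theorem isUnit_of_notMem_jacobson [IsLocalRing R] {x : R} (hx : x ∉ Ring.jacobson R) :
    IsUnit x := by
  have key : ∀ y : R, y ∉ Ring.jacobson R → ∃ z, z * y = 1 := by
    intro y hy
    rw [Ring.jacobson_eq_sInf_isMaximal, Submodule.mem_sInf] at hy
    push Not at hy
    obtain ⟨m, hm, hym⟩ := hy
    have hm' : Ideal.IsMaximal m := hm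
    obtain ⟨r, a, ha, hra⟩ := hm'.exists_inv hym
    rcases IsLocalRing.isUnit_or_isUnit_of_add_one hra with h | h
    · obtain ⟨u, hu⟩ := h
      refine ⟨↑u⁻¹ * r, ?_⟩
      rw [mul_assoc, ← hu]
      simp
    · exact absurd (Ideal.eq_top_of_isUnit_mem m ha h) hm'.ne_top
  obtain ⟨y, hy⟩ := key x hx
  have hyJ : y ∉ Ring.jacobson R := by
    intro h
    have h1 : y * x ∈ Ring.jacobson R := Ideal.mul_mem_right _ _ h
    rw [hy] at h1
    exact (Ring.jacobson_lt_top (R := R)).ne ((Ideal.eq_top_iff_one _).mpr h1)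
  obtain ⟨z, hz⟩ := key y hyJ
  have hzx : z = x := by
    calc z = z * (y * x) := by rw [hy, mul_one]
      _ = (z * y) * x := by rw [mul_assoc]
      _ = x := by rw [hz, one_mul]
  subst hzx
  exact ⟨⟨z, y, hz, hy⟩, rfl⟩

theorem isSimple_quot_jacobson [IsLocalRing R] : IsSimpleModule R (R ⧸ Ring.jacobson R) := by
  rw [isSimpleModule_iff_isCoatom]
  refine ⟨(Ring.jacobson_lt_top (R := R)).ne, ?_⟩
  intro I hI
  obtain ⟨x, hxI, hxJ⟩ := SetLike.exists_of_lt hI
  exact Ideal.eq_top_of_isUnit_mem I hxI (isUnit_of_notMem_jacobson hxJ)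

/-- a nonzero element of a module killed by the radical gives an embedding of `R ⧸ J`. -/
theorem exists_injective_of_ne_zero [IsLocalRing R] (W : Type*) [AddCommGroup W] [Module R W]
    (hW : ∀ r ∈ Ring.jacobson R, ∀ w : W, r • w = 0) (w : W) (hw : w ≠ 0) :
    ∃ φ : (R ⧸ Ring.jacobson R) →ₗ[R] W, Function.Injective φ := by
  have hann : Ring.jacobson R ≤ LinearMap.ker (LinearMap.toSpanSingleton R W w) := by
    intro r hr
    exact hW r hr w
  let φ : (R ⧸ Ring.jacobson R) →ₗ[R] W :=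
    (Ring.jacobson R).liftQ (LinearMap.toSpanSingleton R W w) hann
  have hφ : φ ≠ 0 := by
    intro h
    apply hw
    have := congrArg (fun f : (R ⧸ Ring.jacobson R) →ₗ[R] W => f (Submodule.Quotient.mk 1)) h
    have h2 : φ (Submodule.Quotient.mk 1) = w := by
      simp only [φ]
      rw [Submodule.liftQ_apply]
      simp
    rw [← h2]
    exact this
  have := isSimple_quot_jacobson (R := R)
  exact ⟨φ, LinearMap.injective_of_ne_zero hφ⟩

theorem simple_equiv [IsLocalRing R] (S : Type*) [AddCommGroup S] [Module R S]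
    [IsSimpleModule R S] : Nonempty (S ≃ₗ[R] (R ⧸ Ring.jacobson R)) := by
  have hnt : Nontrivial S := IsSimpleModule.nontrivial R S
  obtain ⟨s, hs⟩ := exists_ne (0 : S)
  have hW : ∀ r ∈ Ring.jacobson R, ∀ w : S, r • w = 0 := by
    intro r hr w
    have := IsSemisimpleModule.jacobson_le_annihilator R S hr
    rw [Module.mem_annihilator] at this
    exact this w
  obtain ⟨φ, hφ⟩ := exists_injective_of_ne_zero S hW s hs
  have := isSimple_quot_jacobson (R := R)
  have hne : φ ≠ 0 := by
    intro h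
    have hnt2 : Nontrivial (R ⧸ Ring.jacobson R) := IsSimpleModule.nontrivial R _
    obtain ⟨a, ha⟩ := exists_ne (0 : R ⧸ Ring.jacobson R)
    apply ha
    apply hφ
    rw [h]
    simp
  exact ⟨(LinearEquiv.ofBijective φ (LinearMap.bijective_of_ne_zero hne)).symm⟩

theorem smul_top_pi (I : Ideal R) [I.IsTwoSided] (t : ℕ) :
    (I • ⊤ : Submodule R (Fin t → R)) = Submodule.pi Set.univ (fun _ => I) := by
  apply le_antisymm
  · rw [Submodule.smul_le]
    intro r hr x _
    rw [Submodule.mem_pi]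
    intro i _
    exact Ideal.mul_mem_right _ _ hr
  · intro x hx
    rw [Submodule.mem_pi] at hx
    rw [pi_eq_sum_univ x]
    apply Submodule.sum_mem
    intro i _
    exact Submodule.smul_mem_smul (hx i trivial) trivial

theorem exists_free_cover [IsArtinianRing R] [IsLocalRing R] (X : Type u) [AddCommGroup X]
    [Module R X] [Module.Finite R X] :
    ∃ (t : ℕ) (π : (Fin t → R) →ₗ[R] X), Function.Surjective π ∧
      LinearMap.ker π ≤ Ring.jacobson R • ⊤ ∧
      Nonempty ((X ⧸ (Ring.jacobson R • ⊤ : Submodule R X)) ≃ₗ[R]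
        (Fin t → R ⧸ Ring.jacobson R)) := by
  set JX : Submodule R X := Ring.jacobson R • ⊤ with hJX
  have hss : IsSemisimpleModule R (X ⧸ JX) := isSemisimple_of_jac_smul _ (jac_smul_quot X)
  obtain ⟨m, S, e, hS⟩ := IsSemisimpleModule.exists_linearEquiv_fin_dfinsupp R (X ⧸ JX)
  have hc : ∀ i : Fin m, Nonempty (S i ≃ₗ[R] (R ⧸ Ring.jacobson R)) := fun i => by
    have := hS i
    exact simple_equiv (S i)
  let c : ∀ i : Fin m, S i ≃ₗ[R] (R ⧸ Ring.jacobson R) := fun i => (hc i).some
  let E : (X ⧸ JX) ≃ₗ[R] (Fin m → R ⧸ Ring.jacobson R) :=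
    e ≪≫ₗ DFinsupp.mapRange.linearEquiv c ≪≫ₗ DFinsupp.linearEquivFunOnFintype
  let q : (Fin m → R) →ₗ[R] (Fin m → R ⧸ Ring.jacobson R) :=
    (Ring.jacobson R).mkQ.compLeft (Fin m)
  have hq : Function.Surjective q := by
    intro y
    choose x hx using fun i => Submodule.mkQ_surjective (Ring.jacobson R) (y i)
    exact ⟨x, funext hx⟩
  obtain ⟨π, hπ⟩ := Module.projective_lifting_property JX.mkQ (E.symm.toLinearMap ∘ₗ q)
    JX.mkQ_surjective
  have hπ' : ∀ a, JX.mkQ (π a) = E.symm (q a) := fun a =>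
    congrArg (fun f : (Fin m → R) →ₗ[R] (X ⧸ JX) => f a) hπ
  refine ⟨m, π, ?_, ?_, ⟨E⟩⟩
  · -- Nakayama
    rw [← LinearMap.range_eq_top]
    set Rg := LinearMap.range π with hRg
    have hle : (⊤ : Submodule R (X ⧸ Rg)) ≤ Ring.jacobson R • ⊤ := by
      intro y _
      obtain ⟨x, rfl⟩ := Submodule.Quotient.mk_surjective _ y
      obtain ⟨a, ha⟩ := hq (E (JX.mkQ x))
      have h1 : JX.mkQ (x - π a) = 0 := by
        rw [map_sub, hπ', ha]
        simp
      have h2 : x - π a ∈ JX := by
        rwa [Submodule.mkQ_apply, Submodule.Quotient.mk_eq_zero] at h1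
      have h3 : (Submodule.Quotient.mk x : X ⧸ Rg) = Rg.mkQ (x - π a) := by
        rw [map_sub]
        have : Rg.mkQ (π a) = 0 := by
          rw [Submodule.mkQ_apply, Submodule.Quotient.mk_eq_zero]
          exact LinearMap.mem_range_self _ _
        rw [this, sub_zero]
        rfl
      rw [h3]
      have h4 : Rg.mkQ (x - π a) ∈ (Ring.jacobson R • ⊤ : Submodule R X).map Rg.mkQ :=
        Submodule.mem_map_of_mem h2
      rw [Submodule.map_smul''] at h4
      exact (smul_mono_right (Ring.jacobson R) (le_top : Submodule.map Rg.mkQ ⊤ ≤ ⊤)) h4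
    have hfg : (⊤ : Submodule R (X ⧸ Rg)).FG := Module.Finite.fg_top
    have hbot : (⊤ : Submodule R (X ⧸ Rg)) = ⊥ := hfg.eq_bot_of_le_jacobson_smul hle
    rw [eq_top_iff]
    intro x _
    have : (Submodule.Quotient.mk x : X ⧸ Rg) ∈ (⊤ : Submodule R (X ⧸ Rg)) := trivial
    rw [hbot, Submodule.mem_bot, Submodule.Quotient.mk_eq_zero] at this
    exact this
  · intro a ha
    rw [LinearMap.mem_ker] at ha
    have h1 : q a = 0 := by
      have := hπ' a
      rw [ha, map_zero] at this
      exact (LinearEquiv.map_eq_zero_iff E.symm).mp this.symm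
    rw [smul_top_pi, Submodule.mem_pi]
    intro i _
    have h2 : (Ring.jacobson R).mkQ (a i) = 0 := congrFun h1 i
    rwa [Submodule.mkQ_apply, Submodule.Quotient.mk_eq_zero] at h2

end Vale.Agent.P195
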