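import Mathlib
import Vale.Agent.P195.Count
import Vale.Agent.P195.LocalBasics

/-!
# Further length computations
-/

universe u v

namespace Vale.Agent.P195

variable (k : Type v) [CommRing k] {R : Type u} [Ring R] [Algebra k R]

section

variable {K P X Y W : Type*} [AddCommGroup K] [Module R K] [AddCommGroup P] [Module R P]
  [AddCommGroup X] [Module R X]
  [AddCommGroup Y] [Module R Y] [Module k Y] [IsScalarTower k R Y]
  [AddCommGroup W] [Module R W] [Module k W] [IsScalarTower k R W]

theorem length_sub_quot (N : Submodule R Y) :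
    Module.length k Y = Module.length k N + Module.length k (Y ⧸ N) :=
  Module.length_eq_add_of_exact (N.subtype.restrictScalars k) (N.mkQ.restrictScalars k)
    N.subtype_injective N.mkQ_surjective (LinearMap.exact_subtype_mkQ N)

theorem length_of_equiv (e : Y ≃ₗ[R] W) : Module.length k Y = Module.length k W :=
  (e.restrictScalars k).length_eq

theorem length_ker (π : Y →ₗ[R] W) (hπ : Function.Surjective π) :
    Module.length k Y = Module.length k (LinearMap.ker π) + Module.length k W :=
  Module.length_eq_add_of_exact ((LinearMap.ker π).subtype.restrictScalars k)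
    (π.restrictScalars k) (LinearMap.ker π).subtype_injective hπ
    (LinearMap.exact_subtype_ker_map π)

theorem length_hom_free (t : ℕ) :
    Module.length k ((Fin t → R) →ₗ[R] Y) = t * Module.length k Y := by
  have e := ((Pi.basisFun R (Fin t)).constr (M' := Y) k).length_eq
  rw [← e, Module.length_pi_of_fintype]
  simp

theorem length_pi_const (t : ℕ) : Module.length k (Fin t → Y) = t * Module.length k Y := by
  rw [Module.length_pi_of_fintype]
  simp

theorem length_smul_top_free (I : Ideal R) [I.IsTwoSided] (t : ℕ) :
    Module.length k (I • ⊤ : Submodule R (Fin t → R)) + t * Module.length k (R ⧸ I) =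
      t * Module.length k R := by
  let q : (Fin t → R) →ₗ[R] (Fin t → R ⧸ I) := I.mkQ.compLeft (Fin t)
  have hq : Function.Surjective q := by
    intro y
    choose x hx using fun i => Submodule.mkQ_surjective I (y i)
    exact ⟨x, funext hx⟩
  have hker : LinearMap.ker q = I • ⊤ := by
    rw [smul_top_pi]
    ext a
    rw [LinearMap.mem_ker, Submodule.mem_pi]
    constructor
    · intro h i _
      have h2 : I.mkQ (a i) = 0 := congrFun h i
      rwa [Submodule.mkQ_apply, Submodule.Quotient.mk_eq_zero] at h2
    · intro h
      funext i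
      have h2 : I.mkQ (a i) = 0 := by
        rw [Submodule.mkQ_apply, Submodule.Quotient.mk_eq_zero]
        exact h i trivial
      exact h2
  have h1 := length_ker k q hq
  rw [hker, length_pi_const, length_pi_const] at h1
  exact h1.symm

/-- if all maps kill `N`, then `Hom(K, W) = Hom(K ⧸ N, W)`. -/
theorem length_hom_quot (N : Submodule R K) (h : ∀ (g : K →ₗ[R] W), N ≤ LinearMap.ker g) :
    Module.length k (K →ₗ[R] W) = Module.length k ((K ⧸ N) →ₗ[R] W) := by
  symm
  refine (LinearEquiv.ofBijective (preC k W N.mkQ) ⟨?_, ?_⟩).length_eq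
  · intro g₁ g₂ h
    ext x
    exact congrArg (fun f : K →ₗ[R] W => f x) h
  · intro g
    exact ⟨N.liftQ g (h g), by ext x; simp⟩

/-- the key inequality coming from the second syzygy -/
theorem length_hom_le (π : P →ₗ[R] K) (hπ : Function.Surjective π)
    (N : Submodule R (LinearMap.ker π)) (Z : Submodule R Y)
    (hland : ∀ (G : P →ₗ[R] Y) (x : LinearMap.ker π), G x.1 ∈ Z)
    (hkill : ∀ (G : P →ₗ[R] Y) (x : LinearMap.ker π), x ∈ N → G x.1 = 0) :
    Module.length k (P →ₗ[R] Y) ≤
      Module.length k (K →ₗ[R] Y) + Module.length k ((LinearMap.ker π ⧸ N) →ₗ[R] Z) := by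
  let ρ : (P →ₗ[R] Y) →ₗ[k] (LinearMap.ker π →ₗ[R] Y) := preC k Y (LinearMap.ker π).subtype
  let Ψ : ((LinearMap.ker π ⧸ N) →ₗ[R] Z) →ₗ[k] (LinearMap.ker π →ₗ[R] Y) :=
    (preC k Y N.mkQ) ∘ₗ (postC k (LinearMap.ker π ⧸ N) Z.subtype)
  have hex := Module.length_eq_add_of_exact (preC k Y π) ρ.rangeRestrict (by
      intro g₁ g₂ h
      ext x
      obtain ⟨p, rfl⟩ := hπ x
      exact congrArg (fun f : P →ₗ[R] Y => f p) h) ρ.surjective_rangeRestrict (by
      intro g
      constructor
      · intro hg
        have hg' : ρ g = 0 := congrArg Subtype.val hg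
        have hker : LinearMap.ker π ≤ LinearMap.ker g := by
          intro p hp
          exact congrArg (fun f : LinearMap.ker π →ₗ[R] Y => f ⟨p, hp⟩) hg'
        refine ⟨(LinearMap.ker π).liftQ g hker ∘ₗ
          (π.quotKerEquivOfSurjective hπ).symm.toLinearMap, ?_⟩
        ext p
        simp only [preC_apply, LinearMap.comp_apply, LinearEquiv.coe_coe]
        have : (π.quotKerEquivOfSurjective hπ).symm (π p) = (LinearMap.ker π).mkQ p := by
          rw [LinearEquiv.symm_apply_eq]
          rfl
        rw [this]
        simp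
      · rintro ⟨g', rfl⟩
        apply Subtype.ext
        ext κ
        have : π κ.1 = 0 := κ.2
        simp [ρ, this])
  rw [hex]
  have hle : LinearMap.range ρ ≤ LinearMap.range Ψ := by
    rintro _ ⟨G, rfl⟩
    refine ⟨N.liftQ ((G.comp (LinearMap.ker π).subtype).codRestrict Z (fun x => hland G x)) ?_, ?_⟩
    · intro x hx
      rw [LinearMap.mem_ker]
      apply Subtype.ext
      exact hkill G x hx
    · ext x
      rfl
  have h2 : Module.length k (LinearMap.range ρ) ≤
      Module.length k ((LinearMap.ker π ⧸ N) →ₗ[R] Z) :=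
    calc Module.length k (LinearMap.range ρ) ≤ Module.length k (LinearMap.range Ψ) :=
          Module.length_le_of_injective (Submodule.inclusion hle)
            (Submodule.inclusion_injective hle)
      _ ≤ Module.length k ((LinearMap.ker π ⧸ N) →ₗ[R] Z) :=
          Module.length_le_of_surjective Ψ.rangeRestrict Ψ.surjective_rangeRestrict
  exact add_le_add le_rfl h2

end

end Vale.Agent.P195
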