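import Mathlib
import Vale.Agent.P195.Cover
import Vale.Agent.P195.Count

/-!
# Finiteness of Hom lengths, and decomposition of `Hom(X, W)` for semisimple `W`
-/

universe u v

namespace Vale.Agent.P195

variable (k : Type v) [CommRing k] {R : Type u} [Ring R] [Algebra k R]

theorem length_hom_ne_top [IsArtinianRing k] [Module.Finite k R]
    (X Y : Type*) [AddCommGroup X] [Module R X] [Module.Finite R X]
    [AddCommGroup Y] [Module R Y] [Module k Y] [IsScalarTower k R Y] [Module.Finite R Y] :
    Module.length k (X →ₗ[R] Y) ≠ ⊤ := by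
  obtain ⟨n, s, hs⟩ := Module.Finite.exists_fin (R := R) (M := X)
  let E : (X →ₗ[R] Y) →ₗ[k] (Fin n → Y) :=
    { toFun := fun g j => g (s j)
      map_add' := fun _ _ => rfl
      map_smul' := fun _ _ => rfl }
  have hE : Function.Injective E := by
    intro g₁ g₂ h
    apply LinearMap.ext_on_range hs
    intro j
    exact congrFun h j
  have hY : Module.Finite k Y := Module.Finite.trans R Y
  have h1 : Module.length k (Fin n → Y) ≠ ⊤ := Module.length_ne_top
  exact ne_top_of_le_ne_top h1 (Module.length_le_of_injective E hE)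

theorem exists_simples [IsArtinianRing R] :
    ∃ (N : ℕ) (L : Fin N → ModuleCat.{u} R), (∀ β, IsSimpleModule R (L β)) ∧
      ∀ (S : Type u) [AddCommGroup S] [Module R S] [IsSimpleModule R S],
        ∃ β, Nonempty (S ≃ₗ[R] L β) := by
  have hss : IsSemisimpleModule R (R ⧸ Ring.jacobson R) := by
    apply isSemisimple_of_jac_smul
    intro r hr w
    obtain ⟨p, rfl⟩ := Submodule.Quotient.mk_surjective _ w
    rw [← Submodule.Quotient.mk_smul, Submodule.Quotient.mk_eq_zero]
    exact Ideal.mul_mem_right _ _ hr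
  obtain ⟨N, S', e, hS'⟩ := IsSemisimpleModule.exists_linearEquiv_fin_dfinsupp R
    (R ⧸ Ring.jacobson R)
  refine ⟨N, fun β => ModuleCat.of R (S' β), hS', ?_⟩
  intro S _ _ _
  have hnt : Nontrivial S := IsSimpleModule.nontrivial R S
  obtain ⟨s, hs⟩ := exists_ne (0 : S)
  have hann : Ring.jacobson R ≤ LinearMap.ker (LinearMap.toSpanSingleton R S s) := by
    intro r hr
    have := IsSemisimpleModule.jacobson_le_annihilator R S hr
    rw [Module.mem_annihilator] at this
    exact this s
  let φ : (R ⧸ Ring.jacobson R) →ₗ[R] S :=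
    (Ring.jacobson R).liftQ (LinearMap.toSpanSingleton R S s) hann
  have hφ : φ ≠ 0 := by
    intro h
    apply hs
    have := congrArg (fun f : (R ⧸ Ring.jacobson R) →ₗ[R] S => f (Submodule.Quotient.mk 1)) h
    have h2 : φ (Submodule.Quotient.mk 1) = s := by
      simp only [φ]
      rw [Submodule.liftQ_apply]
      simp
    rw [← h2]
    exact this
  have hφe : φ.comp e.symm.toLinearMap ≠ 0 := by
    intro h
    apply hφ
    apply LinearMap.ext
    intro x
    have := congrArg (fun f : (Π₀ i, S' i) →ₗ[R] S => f (e x)) h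
    simpa using this
  have : ∃ β, (φ.comp e.symm.toLinearMap).comp (DFinsupp.lsingle β) ≠ 0 := by
    by_contra hcon
    push Not at hcon
    apply hφe
    apply DFinsupp.lhom_ext'
    intro β
    rw [hcon β]
    simp
  obtain ⟨β, hβ⟩ := this
  have hbij := LinearMap.bijective_of_ne_zero hβ
  exact ⟨β, ⟨(LinearEquiv.ofBijective _ hbij).symm⟩⟩

theorem exists_mult [IsArtinianRing R] {N : ℕ} (L : Fin N → ModuleCat.{u} R)
    (hL : ∀ (S : Type u) [AddCommGroup S] [Module R S] [IsSimpleModule R S],
        ∃ β, Nonempty (S ≃ₗ[R] L β))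
    (X : Type u) [AddCommGroup X] [Module R X] [Module.Finite R X] :
    ∃ n : Fin N → ℕ, ∀ (W : Type u) [AddCommGroup W] [Module R W] [Module k W]
      [IsScalarTower k R W], (∀ r ∈ Ring.jacobson R, ∀ w : W, r • w = 0) →
      Module.length k (X →ₗ[R] W) = ∑ β, (n β : ℕ∞) * Module.length k (L β →ₗ[R] W) := by
  set JX : Submodule R X := Ring.jacobson R • ⊤ with hJX
  have hss : IsSemisimpleModule R (X ⧸ JX) := isSemisimple_of_jac_smul _ (jac_smul_quot X)
  obtain ⟨m, S, e, hS⟩ := IsSemisimpleModule.exists_linearEquiv_fin_dfinsupp R (X ⧸ JX)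
  have hch : ∀ i : Fin m, ∃ β, Nonempty (S i ≃ₗ[R] L β) := fun i => hL (S i)
  choose b hb using hch
  refine ⟨fun β => (Finset.univ.filter (fun i => b i = β)).card, ?_⟩
  intro W _ _ _ _ hW
  have h1 : Module.length k (X →ₗ[R] W) = Module.length k ((X ⧸ JX) →ₗ[R] W) :=
    length_hom_cover k JX.mkQ JX.mkQ_surjective (by rw [Submodule.ker_mkQ]) hW
  have h2 : Module.length k ((X ⧸ JX) →ₗ[R] W) = Module.length k ((Π₀ i, S i) →ₗ[R] W) :=
    (LinearEquiv.congrLeft W k e).length_eq
  have h3 : Module.length k ((Π₀ i, S i) →ₗ[R] W) = Module.length k (∀ i, S i →ₗ[R] W) :=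
    (DFinsupp.lsum k (R := R) (M := fun i => S i) (N := W)).length_eq.symm
  have h4 : Module.length k (∀ i, S i →ₗ[R] W) = ∑ i, Module.length k (S i →ₗ[R] W) :=
    Module.length_pi_of_fintype k _
  have h5 : ∀ i, Module.length k (S i →ₗ[R] W) = Module.length k (L (b i) →ₗ[R] W) :=
    fun i => (LinearEquiv.congrLeft W k (hb i).some).length_eq
  rw [h1, h2, h3, h4]
  simp_rw [h5]
  rw [← Finset.sum_fiberwise Finset.univ b (fun i => Module.length k (L (b i) →ₗ[R] W))]
  apply Finset.sum_congr rfl
  intro β _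
  rw [Finset.sum_congr rfl (g := fun _ => Module.length k (L β →ₗ[R] W))]
  · simp
  · intro i hi
    rw [(Finset.mem_filter.mp hi).2]

end Vale.Agent.P195
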