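import Mathlib
import Vale.Agent.P195.Simples
import Vale.Agent.P195.LocalCount

/-!
# Modules of Loewy length two without self-extensions over local algebras
-/

universe u v

namespace Vale.Agent.P195

theorem local_arith (t t1 m2 δ s r0 A lK lK2 : ℕ)
    (hA : t1 * s < t * (t * δ))
    (h3 : t * r0 = lK + (s + t * δ))
    (hC : lK = t * A + t1 * δ)
    (hB : t1 * (s + t * δ) ≤ t1 * s + m2 * s)
    (h4 : t1 * r0 = lK2 + lK)
    (h5 : lK2 = t1 * A + m2 * δ)
    (hAδ : δ ≤ A) (hs : 0 < s) : False := by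
  subst hC h5
  zify at *
  have e1 : (t : ℤ) * m2 * δ + t * t * A = t1 * t1 * δ + t1 * s := by
    linear_combination (t1 : ℤ) * h3 - t * h4
  have e2 : (t : ℤ) * m2 * δ * s + t * t * A * s = t1 * s * (t1 * δ + s) := by
    linear_combination (s : ℤ) * e1
  have hB' : (t1 : ℤ) * t * δ ≤ m2 * s := by nlinarith
  have step1 : (t1 : ℤ) * t * δ * (t * δ) ≤ m2 * s * (t * δ) :=
    mul_le_mul_of_nonneg_right hB' (by positivity)
  have step2 : (t1 : ℤ) * s * (t1 * δ + s) < t * (t * δ) * (t1 * δ + s) :=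
    mul_lt_mul_of_pos_right hA (by positivity)
  have step3 : (t : ℤ) * t * δ * s ≤ t * t * A * s := by
    have : (t : ℤ) * t * δ ≤ t * t * A := mul_le_mul_of_nonneg_left hAδ (by positivity)
    exact mul_le_mul_of_nonneg_right this (by positivity)
  nlinarith [step1, step2, step3, e2]

variable (k : Type v) [CommRing k] {R : Type u} [Ring R] [Algebra k R]

theorem exists_rank [IsArtinianRing R] [IsLocalRing R]
    (Y : Type u) [AddCommGroup Y] [Module R Y] [Module k Y] [IsScalarTower k R Y]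
    [Module.Finite R Y] :
    ∃ m : ℕ, Module.length k (Y ⧸ (Ring.jacobson R • ⊤ : Submodule R Y)) =
        m * Module.length k (R ⧸ Ring.jacobson R) ∧
      ∀ (W : Type u) [AddCommGroup W] [Module R W] [Module k W] [IsScalarTower k R W],
        (∀ r ∈ Ring.jacobson R, ∀ w : W, r • w = 0) →
        Module.length k (Y →ₗ[R] W) = m * Module.length k W := by
  obtain ⟨m, π, hπ, hker, ⟨e⟩⟩ := exists_free_cover (R := R) Y
  refine ⟨m, ?_, ?_⟩
  · rw [length_of_equiv k e, length_pi_const]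
  · intro W _ _ _ _ hW
    rw [← length_hom_cover k π hπ hker hW, length_hom_free]

/-- for a module killed by the radical, the length is a multiple of that of `R ⧸ J`. -/
theorem exists_rank_ss [IsArtinianRing R] [IsLocalRing R]
    (Y : Type u) [AddCommGroup Y] [Module R Y] [Module k Y] [IsScalarTower k R Y]
    [Module.Finite R Y] (hY : ∀ r ∈ Ring.jacobson R, ∀ y : Y, r • y = 0) :
    ∃ m : ℕ, Module.length k Y = m * Module.length k (R ⧸ Ring.jacobson R) ∧
      ∀ (W : Type u) [AddCommGroup W] [Module R W] [Module k W] [IsScalarTower k R W],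
        (∀ r ∈ Ring.jacobson R, ∀ w : W, r • w = 0) →
        Module.length k (Y →ₗ[R] W) = m * Module.length k W := by
  obtain ⟨m, h1, h2⟩ := exists_rank k (R := R) Y
  refine ⟨m, ?_, h2⟩
  have hbot : (Ring.jacobson R • ⊤ : Submodule R Y) = ⊥ := by
    rw [eq_bot_iff, Submodule.smul_le]
    intro r hr y _
    rw [Submodule.mem_bot]
    exact hY r hr y
  have h3 := length_sub_quot k (Ring.jacobson R • ⊤ : Submodule R Y)
  rw [h1] at h3
  rw [h3, hbot]
  simp

section helpers

variable {k}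

theorem sq_smul_eq_zero {X : Type*} [AddCommGroup X] [Module R X]
    (hJJ : ∀ r ∈ Ring.jacobson R, ∀ s ∈ Ring.jacobson R, ∀ x : X, r • s • x = 0)
    (r : R) (hr : r ∈ Ring.jacobson R ^ 2) (x : X) : r • x = 0 := by
  rw [Submodule.pow_succ, Submodule.pow_one] at hr
  refine Submodule.mul_induction_on hr (fun a ha b hb => ?_) (fun a b ha hb => ?_)
  · rw [mul_smul]
    exact hJJ a ha b hb x
  · rw [add_smul, ha, hb, add_zero]

theorem map_sq_smul_top {F X : Type*} [AddCommGroup F] [Module R F] [AddCommGroup X] [Module R X]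
    (hJJ : ∀ r ∈ Ring.jacobson R, ∀ s ∈ Ring.jacobson R, ∀ x : X, r • s • x = 0)
    (G : F →ₗ[R] X) (y : F) (hy : y ∈ (Ring.jacobson R ^ 2 • ⊤ : Submodule R F)) : G y = 0 := by
  induction hy using Submodule.smul_induction_on' with
  | smul r hr x _ => rw [map_smul]; exact sq_smul_eq_zero hJJ r hr _
  | add x _ y _ hx hy => rw [map_add, hx, hy, add_zero]

theorem map_smul_top {F X : Type*} [AddCommGroup F] [Module R F] [AddCommGroup X] [Module R X]
    (G : F →ₗ[R] X) (y : F) (hy : y ∈ (Ring.jacobson R • ⊤ : Submodule R F)) :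
    G y ∈ (Ring.jacobson R • ⊤ : Submodule R X) := by
  have h1 : G y ∈ (Ring.jacobson R • ⊤ : Submodule R F).map G := Submodule.mem_map_of_mem hy
  rw [Submodule.map_smul''] at h1
  exact (smul_mono_right (Ring.jacobson R) (le_top : Submodule.map G ⊤ ≤ ⊤)) h1

theorem smul_mem_sq {F : Type*} [AddCommGroup F] [Module R F] (r : R) (hr : r ∈ Ring.jacobson R)
    (y : F) (hy : y ∈ (Ring.jacobson R • ⊤ : Submodule R F)) :
    r • y ∈ (Ring.jacobson R ^ 2 • ⊤ : Submodule R F) := by
  rw [Submodule.pow_succ, Submodule.pow_one, Submodule.mul_smul]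
  exact Submodule.smul_mem_smul hr hy

theorem smul_sub_eq_zero {X : Type*} [AddCommGroup X] [Module R X]
    (hJJ : ∀ r ∈ Ring.jacobson R, ∀ s ∈ Ring.jacobson R, ∀ x : X, r • s • x = 0) :
    ∀ r ∈ Ring.jacobson R, ∀ w : (Ring.jacobson R • ⊤ : Submodule R X), r • w = 0 := by
  intro r hr w
  apply Subtype.ext
  rw [Submodule.coe_smul, Submodule.coe_zero]
  have hgen : ∀ y ∈ (Ring.jacobson R • ⊤ : Submodule R X), r • y = 0 := by
    intro y hy
    induction hy using Submodule.smul_induction_on' with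
    | smul s hs x _ => exact hJJ r hr s hs x
    | add x _ y _ hx hy => rw [smul_add, hx, hy, add_zero]
  exact hgen _ w.2

end helpers


theorem length_ne_top' [IsArtinianRing k] [Module.Finite k R] (Y : Type*) [AddCommGroup Y]
    [Module R Y] [Module k Y] [IsScalarTower k R Y] [Module.Finite R Y] :
    Module.length k Y ≠ ⊤ := by
  have : Module.Finite k Y := Module.Finite.trans R Y
  exact Module.length_ne_top

theorem local_rad_zero [IsArtinianRing k] [Module.Finite k R] [IsArtinianRing R] [IsLocalRing R]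
    (X : Type u) [AddCommGroup X] [Module R X] [Module k X] [IsScalarTower k R X]
    [Module.Finite R X] [Nontrivial X]
    (hext : ∀ (t : ℕ) (π : (Fin t → R) →ₗ[R] X), Function.Surjective π →
      ∀ f : LinearMap.ker π →ₗ[R] X,
        ∃ g : (Fin t → R) →ₗ[R] X, g.comp (LinearMap.ker π).subtype = f)
    (hJX : ∀ r ∈ Ring.jacobson R, ∀ x : X, r • x = 0) : Ring.jacobson R = ⊥ := by
  obtain ⟨t, π, hπ, hker, -⟩ := exists_free_cover (R := R) X
  obtain ⟨t₁, π₁, hπ₁, hker₁, -⟩ := exists_free_cover (R := R) (LinearMap.ker π)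
  have hbot : (Ring.jacobson R • ⊤ : Submodule R X) = ⊥ := by
    rw [eq_bot_iff, Submodule.smul_le]
    intro r hr y _
    rw [Submodule.mem_bot]
    exact hJX r hr y
  have hzero : ∀ f : LinearMap.ker π →ₗ[R] X, f = 0 := by
    intro f
    obtain ⟨g, rfl⟩ := hext t π hπ f
    ext x
    have := map_smul_top g x.1 (hker x.2)
    rw [hbot, Submodule.mem_bot] at this
    exact this
  have h0 : Module.length k (LinearMap.ker π →ₗ[R] X) = 0 := by
    rw [Module.length_eq_zero_iff]
    exact ⟨fun a b => by rw [hzero a, hzero b]⟩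
  have h1 : Module.length k (LinearMap.ker π →ₗ[R] X) = t₁ * Module.length k X := by
    rw [← length_hom_cover k π₁ hπ₁ hker₁ hJX, length_hom_free]
  have hX : Module.length k X ≠ 0 := by
    have : 0 < Module.length k X := Module.length_pos_iff.mpr inferInstance
    exact this.ne'
  rw [h0] at h1
  have ht₁ : t₁ = 0 := by
    rcases mul_eq_zero.mp h1.symm with h | h
    · exact_mod_cast h
    · exact absurd h hX
  subst ht₁
  have hK : ∀ x : LinearMap.ker π, x = 0 := by
    intro x
    obtain ⟨a, rfl⟩ := hπ₁ x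
    have : a = 0 := Subsingleton.elim _ _
    rw [this, map_zero]
  have ht : t ≠ 0 := by
    rintro rfl
    obtain ⟨x, hx⟩ := exists_ne (0 : X)
    obtain ⟨a, rfl⟩ := hπ x
    apply hx
    have : a = 0 := Subsingleton.elim _ _
    rw [this, map_zero]
  obtain ⟨t', rfl⟩ := Nat.exists_eq_succ_of_ne_zero ht
  rw [eq_bot_iff]
  intro r hr
  rw [Submodule.mem_bot]
  have hmem : r • (Pi.single (0 : Fin (t' + 1)) (1 : R) : Fin (t' + 1) → R) ∈ LinearMap.ker π := by
    rw [LinearMap.mem_ker, map_smul]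
    exact hJX r hr _
  have := congrArg Subtype.val (hK ⟨_, hmem⟩)
  have h2 := congrFun this 0
  simpa using h2

theorem cube_kill (hJ3 : Ring.jacobson R ^ 3 = ⊥) {F : Type*} [AddCommGroup F] [Module R F]
    (r : R) (hr : r ∈ Ring.jacobson R) (s : R) (hs : s ∈ Ring.jacobson R) (y : F)
    (hy : y ∈ (Ring.jacobson R • ⊤ : Submodule R F)) : r • s • y = 0 := by
  induction hy using Submodule.smul_induction_on' with
  | smul t ht p _ =>
    have h3 : r * s * t ∈ Ring.jacobson R ^ 3 := by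
      rw [Submodule.pow_succ, Submodule.pow_succ, Submodule.pow_one]
      exact Ideal.mul_mem_mul (Ideal.mul_mem_mul hr hs) ht
    rw [hJ3, Submodule.mem_bot] at h3
    rw [smul_smul, smul_smul, h3, zero_smul]
  | add x _ y _ hx hy => rw [smul_add, smul_add, hx, hy, add_zero]

theorem local_sq_zero [IsArtinianRing k] [Module.Finite k R] [IsArtinianRing R] [IsLocalRing R]
    (hJ3 : Ring.jacobson R ^ 3 = ⊥)
    (X : Type u) [AddCommGroup X] [Module R X] [Module k X] [IsScalarTower k R X]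
    [Module.Finite R X] [Nontrivial X]
    (hJJ : ∀ r ∈ Ring.jacobson R, ∀ s ∈ Ring.jacobson R, ∀ x : X, r • s • x = 0)
    (hext : ∀ (t : ℕ) (π : (Fin t → R) →ₗ[R] X), Function.Surjective π →
      ∀ f : LinearMap.ker π →ₗ[R] X,
        ∃ g : (Fin t → R) →ₗ[R] X, g.comp (LinearMap.ker π).subtype = f)
    (hne : (Ring.jacobson R • ⊤ : Submodule R X) ≠ ⊥) : Ring.jacobson R ^ 2 = ⊥ := by
  by_contra hsq
  obtain ⟨t, π, hπ, hker, ⟨eX⟩⟩ := exists_free_cover (R := R) X
  obtain ⟨t₁, π₁, hπ₁, hker₁, -⟩ := exists_free_cover (R := R) (LinearMap.ker π)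
  let JX : Submodule R X := Ring.jacobson R • ⊤
  have hWsub : ∀ r ∈ Ring.jacobson R, ∀ w : JX, r • w = 0 := smul_sub_eq_zero hJJ
  have hJJK : ∀ r ∈ Ring.jacobson R, ∀ s ∈ Ring.jacobson R, ∀ x : LinearMap.ker π,
      r • s • x = 0 := fun r hr s hs x => Subtype.ext (cube_kill hJ3 r hr s hs x.1 (hker x.2))
  have F1 : Module.length k (X ⧸ JX) = t * Module.length k (R ⧸ Ring.jacobson R) := by
    rw [length_of_equiv k eX, length_pi_const]
  have F2 := length_sub_quot k JX
  have F3 := length_ker k π hπ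
  rw [length_pi_const] at F3
  have hland : ∀ (f : LinearMap.ker π →ₗ[R] X) (x : LinearMap.ker π), f x ∈ JX := by
    intro f x
    obtain ⟨g, rfl⟩ := hext t π hπ f
    exact map_smul_top g x.1 (hker x.2)
  have F4 := length_hom_add k (Y := X) (LinearMap.ker π).subtype π hπ
    (LinearMap.exact_subtype_ker_map π) (hext t π hπ)
  have F5 : Module.length k ((Fin t → R) →ₗ[R] X) = t * Module.length k X := length_hom_free k t
  have F6 := length_hom_sub k JX hland
  have F7 : Module.length k (LinearMap.ker π →ₗ[R] JX) = t₁ * Module.length k JX := by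
    rw [← length_hom_cover k π₁ hπ₁ hker₁ hWsub, length_hom_free]
  have F8 : Module.length k (X →ₗ[R] JX) = t * Module.length k JX := by
    rw [← length_hom_cover k π hπ hker hWsub, length_hom_free]
  have F9 := length_hom_lt k JX (Submodule.jacobson_smul_lt_top ⊤).ne (length_hom_ne_top k X X)
  -- the quotient of `K` by `J² F`
  let N : Submodule R (LinearMap.ker π) :=
    Submodule.comap (LinearMap.ker π).subtype (Ring.jacobson R ^ 2 • ⊤)
  have hJ2K : (Ring.jacobson R ^ 2 • ⊤ : Submodule R (Fin t → R)) ≤ LinearMap.ker π :=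
    fun y hy => map_sq_smul_top hJJ π y hy
  have F10 := length_sub_quot k N
  have F10' : Module.length k N =
      Module.length k (Ring.jacobson R ^ 2 • ⊤ : Submodule R (Fin t → R)) :=
    length_of_equiv k (Submodule.comapSubtypeEquivOfLe hJ2K)
  have F11 := length_smul_top_free k (Ring.jacobson R ^ 2) t
  have F12 : ∀ g : LinearMap.ker π →ₗ[R] JX, N ≤ LinearMap.ker g := by
    intro g x hx
    obtain ⟨G, hG⟩ := hext t π hπ (JX.subtype.comp g)
    have h1 : G x.1 = 0 := map_sq_smul_top hJJ G x.1 hx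
    have h2 : G x.1 = (g x).1 := congrArg (fun f : LinearMap.ker π →ₗ[R] X => f x) hG
    rw [LinearMap.mem_ker]
    exact Subtype.ext (h2.symm.trans h1)
  have F13 := length_hom_quot k N F12
  have hYss : ∀ r ∈ Ring.jacobson R, ∀ y : LinearMap.ker π ⧸ N, r • y = 0 := by
    intro r hr y
    obtain ⟨x, rfl⟩ := Submodule.Quotient.mk_surjective _ y
    rw [← Submodule.Quotient.mk_smul, Submodule.Quotient.mk_eq_zero]
    exact smul_mem_sq r hr x.1 (hker x.2)
  obtain ⟨m', hm'1, hm'2⟩ := exists_rank_ss k (LinearMap.ker π ⧸ N) hYss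
  have F14 := hm'2 JX hWsub
  -- the second syzygy
  let N₂ : Submodule R (LinearMap.ker π₁) :=
    Submodule.comap (LinearMap.ker π₁).subtype (Ring.jacobson R ^ 2 • ⊤)
  have hJ2K₂ : (Ring.jacobson R ^ 2 • ⊤ : Submodule R (Fin t₁ → R)) ≤ LinearMap.ker π₁ :=
    fun y hy => map_sq_smul_top hJJK π₁ y hy
  have G1 := length_hom_le k (Y := X) π₁ hπ₁ N₂ JX
    (fun G x => map_smul_top G x.1 (hker₁ x.2)) (fun G x hx => map_sq_smul_top hJJ G x.1 hx)
  have G2 : Module.length k ((Fin t₁ → R) →ₗ[R] X) = t₁ * Module.length k X :=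
    length_hom_free k t₁
  have hQss : ∀ r ∈ Ring.jacobson R, ∀ y : LinearMap.ker π₁ ⧸ N₂, r • y = 0 := by
    intro r hr y
    obtain ⟨x, rfl⟩ := Submodule.Quotient.mk_surjective _ y
    rw [← Submodule.Quotient.mk_smul, Submodule.Quotient.mk_eq_zero]
    exact smul_mem_sq r hr x.1 (hker₁ x.2)
  obtain ⟨m₂, hm₂1, hm₂2⟩ := exists_rank_ss k (LinearMap.ker π₁ ⧸ N₂) hQss
  have G3 := hm₂2 JX hWsub
  have G4 := length_sub_quot k N₂
  have G4' : Module.length k N₂ =
      Module.length k (Ring.jacobson R ^ 2 • ⊤ : Submodule R (Fin t₁ → R)) :=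
    length_of_equiv k (Submodule.comapSubtypeEquivOfLe hJ2K₂)
  have G5 := length_smul_top_free k (Ring.jacobson R ^ 2) t₁
  have G6 := length_ker k π₁ hπ₁
  rw [length_pi_const] at G6
  -- the ideal `J²`
  have H1 := length_sub_quot k (Ring.jacobson R ^ 2 : Submodule R R)
  have H2 : Module.length k (R ⧸ Ring.jacobson R) ≤
      Module.length k (Ring.jacobson R ^ 2 : Submodule R R) := by
    obtain ⟨w, hw, hw0⟩ := (Submodule.ne_bot_iff _).mp hsq
    have hW : ∀ r ∈ Ring.jacobson R, ∀ v : (Ring.jacobson R ^ 2 : Submodule R R), r • v = 0 := by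
      intro r hr v
      have hgen : ∀ v ∈ Ring.jacobson R ^ 2, r * v = 0 := by
        intro v hv
        rw [Submodule.pow_succ, Submodule.pow_one] at hv
        refine Submodule.mul_induction_on hv (fun a ha b hb => ?_) (fun a b ha hb => ?_)
        · have h3 : r * a * b ∈ Ring.jacobson R ^ 3 := by
            rw [Submodule.pow_succ, Submodule.pow_succ, Submodule.pow_one]
            exact Ideal.mul_mem_mul (Ideal.mul_mem_mul hr ha) hb
          rw [hJ3, Submodule.mem_bot] at h3
          rw [← mul_assoc, h3]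
        · rw [mul_add, ha, hb, add_zero]
      exact Subtype.ext (hgen v.1 v.2)
    obtain ⟨φ, hφ⟩ := exists_injective_of_ne_zero
      (Ring.jacobson R ^ 2 : Submodule R R) hW ⟨w, hw⟩ (fun h => hw0 (congrArg Subtype.val h))
    exact Module.length_le_of_injective (φ.restrictScalars k) hφ
  have hspos : 0 < Module.length k JX := by
    rw [Module.length_pos_iff]
    exact (Submodule.nontrivial_iff_ne_bot).mpr hne
  -- conversion to natural numbers
  obtain ⟨δ, hδ⟩ := ENat.ne_top_iff_exists.mp (length_ne_top' k (R := R) (R ⧸ Ring.jacobson R))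
  obtain ⟨s, hs⟩ := ENat.ne_top_iff_exists.mp (length_ne_top' k (R := R) JX)
  obtain ⟨r0, hr0⟩ := ENat.ne_top_iff_exists.mp (length_ne_top' k (R := R) R)
  obtain ⟨r2, hr2⟩ := ENat.ne_top_iff_exists.mp
    (length_ne_top' k (R := R) (R ⧸ Ring.jacobson R ^ 2))
  obtain ⟨A, hA⟩ := ENat.ne_top_iff_exists.mp
    (length_ne_top' k (R := R) (Ring.jacobson R ^ 2 : Submodule R R))
  obtain ⟨lX, hlX⟩ := ENat.ne_top_iff_exists.mp (length_ne_top' k (R := R) X)
  obtain ⟨lK, hlK⟩ := ENat.ne_top_iff_exists.mp (length_ne_top' k (R := R) (LinearMap.ker π))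
  obtain ⟨lK2, hlK2⟩ := ENat.ne_top_iff_exists.mp
    (length_ne_top' k (R := R) (LinearMap.ker π₁))
  obtain ⟨n1, hn1⟩ := ENat.ne_top_iff_exists.mp
    (length_ne_top' k (R := R) (Ring.jacobson R ^ 2 • ⊤ : Submodule R (Fin t → R)))
  obtain ⟨n2, hn2⟩ := ENat.ne_top_iff_exists.mp
    (length_ne_top' k (R := R) (Ring.jacobson R ^ 2 • ⊤ : Submodule R (Fin t₁ → R)))
  obtain ⟨hXX, hhXX⟩ := ENat.ne_top_iff_exists.mp (length_hom_ne_top k (R := R) X X)
  rw [F1, ← hlX, ← hs, ← hδ] at F2
  rw [← hr0, ← hlK, ← hlX] at F3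
  rw [F5, F6, F7, ← hlX, ← hhXX, ← hs] at F4
  rw [F8, ← hs, ← hhXX] at F9
  rw [F10', hm'1, ← hlK, ← hn1, ← hδ] at F10
  rw [← hn1, ← hr2, ← hr0] at F11
  rw [F7, F14, ← hs] at F13
  rw [G2, F6, F7, G3, ← hlX, ← hs] at G1
  rw [G4', hm₂1, ← hlK2, ← hn2, ← hδ] at G4
  rw [← hn2, ← hr2, ← hr0] at G5
  rw [← hr0, ← hlK2, ← hlK] at G6
  rw [← hr0, ← hA, ← hr2] at H1
  rw [← hδ, ← hA] at H2
  rw [← hs] at hspos
  have F2' : lX = s + t * δ := by exact_mod_cast F2
  have F3' : t * r0 = lK + lX := by exact_mod_cast F3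
  have F4' : t * lX = hXX + t₁ * s := by exact_mod_cast F4
  have F9' : t * s < hXX := by exact_mod_cast F9
  have F10n : lK = n1 + m' * δ := by exact_mod_cast F10
  have F11' : n1 + t * r2 = t * r0 := by exact_mod_cast F11
  have F13' : t₁ * s = m' * s := by exact_mod_cast F13
  have G1' : t₁ * lX ≤ t₁ * s + m₂ * s := by exact_mod_cast G1
  have G4n : lK2 = n2 + m₂ * δ := by exact_mod_cast G4
  have G5' : n2 + t₁ * r2 = t₁ * r0 := by exact_mod_cast G5
  have G6' : t₁ * r0 = lK2 + lK := by exact_mod_cast G6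
  have H1' : r0 = A + r2 := by exact_mod_cast H1
  have H2' : δ ≤ A := by exact_mod_cast H2
  have hs' : 0 < s := by exact_mod_cast hspos
  have hm' : t₁ = m' := Nat.eq_of_mul_eq_mul_right hs' F13'
  subst hm'
  have hn1' : n1 = t * A := by
    rw [H1', mul_add] at F11'
    omega
  have hn2' : n2 = t₁ * A := by
    rw [H1', mul_add] at G5'
    omega
  refine local_arith t t₁ m₂ δ s r0 A lK lK2 ?_ ?_ ?_ ?_ G6' ?_ H2' hs'
  · rw [F2', mul_add] at F4'
    omega
  · rw [← F2']
    exact F3'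
  · rw [F10n, hn1']
  · rw [← F2']
    exact G1'
  · rw [G4n, hn2']

end Vale.Agent.P195
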