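import Mathlib

/-!
# Ext vanishing lemmas in `ModuleCat R`
-/

open CategoryTheory Abelian

universe u

namespace Vale.Agent.P195

variable {R : Type u} [Ring R]

/-- shifting in the first variable -/
theorem ext_shift_left {S : ShortComplex (ModuleCat.{u} R)} (hS : S.ShortExact)
    [Projective S.X₂] (Y : ModuleCat.{u} R) (n : ℕ)
    (h : ∀ x : Ext S.X₃ Y (n + 2), x = 0) (x : Ext S.X₁ Y (n + 1)) : x = 0 := by
  obtain ⟨x₂, hx₂⟩ := Ext.contravariant_sequence_exact₁ hS Y x (n₁ := n + 2) (by omega) (h _)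
  rw [← hx₂, Ext.eq_zero_of_projective x₂, Ext.comp_zero]

/-- shifting in the second variable -/
theorem ext_shift_right {S : ShortComplex (ModuleCat.{u} R)} (hS : S.ShortExact)
    (X : ModuleCat.{u} R) (n : ℕ)
    (h₃ : ∀ x : Ext X S.X₃ n, x = 0) (h₂ : ∀ x : Ext X S.X₂ (n + 1), x = 0)
    (x : Ext X S.X₁ (n + 1)) : x = 0 := by
  obtain ⟨x₃, hx₃⟩ := Ext.covariant_sequence_exact₁ X hS x (h₂ _) (n₀ := n) rfl
  rw [← hx₃, h₃ x₃, Ext.zero_comp]

/-- extension of morphisms when `Ext¹` vanishes -/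
theorem ext_extend {S : ShortComplex (ModuleCat.{u} R)} (hS : S.ShortExact)
    (Y : ModuleCat.{u} R) (h : ∀ x : Ext S.X₃ Y 1, x = 0) (f : S.X₁ ⟶ Y) :
    ∃ g : S.X₂ ⟶ Y, S.f ≫ g = f := by
  obtain ⟨x₂, hx₂⟩ := Ext.contravariant_sequence_exact₁ hS Y (Ext.mk₀ f) (n₁ := 1) (by omega) (h _)
  obtain ⟨g, rfl⟩ := (Ext.mk₀_bijective _ _).2 x₂
  refine ⟨g, ?_⟩
  rw [Ext.mk₀_comp_mk₀] at hx₂
  exact (Ext.mk₀_bijective _ _).1 hx₂

/-- `Ext` into a finitely generated projective module vanishes if `Ext` into `R` does. -/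
theorem ext_proj_eq_zero (X Q : ModuleCat.{u} R) [Module.Finite R Q] [Module.Projective R Q]
    (n : ℕ) (h : ∀ x : Ext X (ModuleCat.of R R) n, x = 0) (x : Ext X Q n) : x = 0 := by
  obtain ⟨m, p, hp⟩ := Module.Finite.exists_fin' R Q
  obtain ⟨s, hs⟩ := Module.projective_lifting_property p LinearMap.id hp
  let φ : Fin m → (Q ⟶ ModuleCat.of R R) := fun j => ModuleCat.ofHom ((LinearMap.proj j).comp s)
  let ψ : Fin m → (ModuleCat.of R R ⟶ Q) := fun j =>
    ModuleCat.ofHom (p.comp (LinearMap.single R (fun _ => R) j))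
  have hid : 𝟙 Q = ∑ j, φ j ≫ ψ j := by
    ext q
    have h1 : p (s q) = q := by
      have := congrArg (fun f => f q) hs
      simpa using this
    have h2 : (∑ j, φ j ≫ ψ j).hom q = ∑ j, (φ j ≫ ψ j).hom q := by
      rw [ModuleCat.hom_sum, LinearMap.sum_apply]
    rw [h2]
    simp only [ModuleCat.hom_id, LinearMap.id_coe, id_eq, φ, ψ, ModuleCat.hom_comp,
      ModuleCat.hom_ofHom, LinearMap.comp_apply, LinearMap.proj_apply]
    rw [← map_sum]
    conv_lhs => rw [← h1]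
    congr 1
    ext i
    simp [Finset.sum_apply, Pi.single_apply]
  have : x = x.comp (Ext.mk₀ (𝟙 Q)) (add_zero n) := by simp
  rw [this, hid, Ext.mk₀_sum, Ext.comp_sum]
  apply Finset.sum_eq_zero
  intro j _
  rw [← Ext.mk₀_comp_mk₀, ← Ext.comp_assoc_of_second_deg_zero, h (x.comp (Ext.mk₀ (φ j)) _),
    Ext.zero_comp]

end Vale.Agent.P195
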