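import Mathlib
import Vale.Agent.P195.ExtLemmas
import Vale.Agent.P195.Cover
import Vale.Agent.P195.Core

/-!
# The Auslander-Reiten conjecture for Artin algebras with radical cube zero
-/

open CategoryTheory Abelian

universe u v

namespace Vale.Agent.P195

variable {R : Type u} [Ring R]

/-- finitely generated modules, bundled -/
def FinMod (R : Type u) [Ring R] := {X : ModuleCat.{u} R // Module.Finite R X}

instance (X : FinMod R) : Module.Finite R X.1 := X.2

section cover

variable [IsArtinianRing R]

/-- the chosen projective cover -/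
noncomputable def covP (X : FinMod R) : ModuleCat.{u} R := (exists_cover X.1).choose

/-- the chosen covering map -/
noncomputable def covπ (X : FinMod R) : covP X →ₗ[R] X.1 := (exists_cover X.1).choose_spec.choose

theorem cov_spec (X : FinMod R) : Module.Projective R (covP X) ∧ Module.Finite R (covP X) ∧
    Function.Surjective (covπ X) ∧ LinearMap.ker (covπ X) ≤ Ring.jacobson R • ⊤ :=
  (exists_cover X.1).choose_spec.choose_spec

instance (X : FinMod R) : Module.Projective R (covP X) := (cov_spec X).1
instance (X : FinMod R) : Module.Finite R (covP X) := (cov_spec X).2.1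

/-- the syzygy -/
noncomputable def nextMod (X : FinMod R) : FinMod R :=
  ⟨ModuleCat.of R (LinearMap.ker (covπ X)), by
    change Module.Finite R (LinearMap.ker (covπ X))
    infer_instance⟩

/-- the chain of syzygies -/
noncomputable def chain (M : FinMod R) : ℕ → FinMod R
  | 0 => M
  | i + 1 => nextMod (chain M i)

/-- the short complex `0 → Ω X → P X → X → 0`. -/
noncomputable def sc (X : FinMod R) : ShortComplex (ModuleCat.{u} R) := (covπ X).shortComplexKer

theorem sc_exact (X : FinMod R) : (sc X).ShortExact :=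
  LinearMap.shortExact_shortComplexKer (cov_spec X).2.2.1

instance (X : FinMod R) : Projective (sc X).X₂ := by
  change Projective (ModuleCat.of R (covP X))
  have : Module.Projective R (ModuleCat.of R (covP X)) := (cov_spec X).1
  infer_instance

theorem shiftL (X : FinMod R) (Y : ModuleCat.{u} R) (n : ℕ)
    (h : ∀ x : Ext X.1 Y (n + 2), x = 0) (x : Ext (nextMod X).1 Y (n + 1)) : x = 0 :=
  ext_shift_left (sc_exact X) Y n h x

theorem shiftR (X : FinMod R) (Z : ModuleCat.{u} R) (n : ℕ)
    (h₃ : ∀ x : Ext Z X.1 n, x = 0) (h₂ : ∀ x : Ext Z (covP X) (n + 1), x = 0)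
    (x : Ext Z (nextMod X).1 (n + 1)) : x = 0 :=
  ext_shift_right (sc_exact X) Z n h₃ h₂ x

theorem extendL (X : FinMod R) (Y : ModuleCat.{u} R) (h : ∀ x : Ext X.1 Y 1, x = 0)
    (f : LinearMap.ker (covπ X) →ₗ[R] Y) :
    ∃ g : covP X →ₗ[R] Y, g.comp (LinearMap.ker (covπ X)).subtype = f := by
  obtain ⟨g, hg⟩ := ext_extend (sc_exact X) Y h (ModuleCat.ofHom f)
  refine ⟨g.hom, ?_⟩
  have := congrArg ModuleCat.Hom.hom hg
  exact this

variable (M : FinMod R)

theorem chain_ext_of (Y : ModuleCat.{u} R) (h : ∀ n, ∀ x : Ext M.1 Y (n + 1), x = 0) :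
    ∀ i n, ∀ x : Ext (chain M i).1 Y (n + 1), x = 0 := by
  intro i
  induction i with
  | zero => exact h
  | succ i ih => exact fun n x => shiftL (chain M i) Y n (ih (n + 1)) x

theorem chain_ext_proj (hR : ∀ n, ∀ x : Ext M.1 (ModuleCat.of R R) (n + 1), x = 0)
    (Q : ModuleCat.{u} R) [Module.Finite R Q] [Module.Projective R Q] :
    ∀ i n, ∀ x : Ext (chain M i).1 Q (n + 1), x = 0 :=
  fun i n x => ext_proj_eq_zero _ Q (n + 1) (chain_ext_of M _ hR i n) x

theorem chain_ext_chain (hR : ∀ n, ∀ x : Ext M.1 (ModuleCat.of R R) (n + 1), x = 0)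
    (hM : ∀ n, ∀ x : Ext M.1 M.1 (n + 1), x = 0) :
    ∀ l i n, l < n + 1 + i → ∀ x : Ext (chain M i).1 (chain M l).1 (n + 1), x = 0 := by
  intro l
  induction l with
  | zero => exact fun i n _ x => chain_ext_of M M.1 hM i n x
  | succ l ih =>
    have step : ∀ i n, l + 1 < n + 2 + i →
        ∀ x : Ext (chain M i).1 (chain M (l + 1)).1 (n + 2), x = 0 := by
      intro i n hlt x
      exact shiftR (chain M l) (chain M i).1 (n + 1) (ih i n (by omega))
        (chain_ext_proj M hR (covP (chain M l)) i (n + 1)) x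
    intro i n hlt x
    cases n with
    | succ n => exact step i n (by omega) x
    | zero =>
      obtain ⟨i', rfl⟩ : ∃ i', i = i' + 1 := ⟨i - 1, by omega⟩
      exact shiftL (chain M i') (chain M (l + 1)).1 0 (step i' 0 (by omega)) x

theorem proj_of_ext_next (X : FinMod R) (h : ∀ x : Ext X.1 (nextMod X).1 1, x = 0) :
    Module.Projective R X.1 := by
  obtain ⟨r, hr⟩ := extendL X (nextMod X).1 h LinearMap.id
  set K := LinearMap.ker (covπ X) with hK
  have hr' : ∀ κ : K, r κ.1 = κ := fun κ => congrArg (fun f : K →ₗ[R] K => f κ) hr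
  have hle : (⊤ : Submodule R K) ≤ Ring.jacobson R • ⊤ := by
    intro κ _
    have h1 : r κ.1 ∈ (Ring.jacobson R • ⊤ : Submodule R (covP X)).map r :=
      Submodule.mem_map_of_mem ((cov_spec X).2.2.2 κ.2)
    rw [Submodule.map_smul'', hr' κ] at h1
    exact (smul_mono_right (Ring.jacobson R) (le_top : Submodule.map r ⊤ ≤ ⊤)) h1
  have hfg : (⊤ : Submodule R K).FG := Module.Finite.fg_top
  have hbot : (⊤ : Submodule R K) = ⊥ := hfg.eq_bot_of_le_jacobson_smul hle
  have hKbot : K = ⊥ := by
    rw [eq_bot_iff]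
    intro x hx
    have : (⟨x, hx⟩ : K) ∈ (⊤ : Submodule R K) := Submodule.mem_top
    rw [hbot, Submodule.mem_bot] at this
    exact congrArg Subtype.val this
  have hinj : Function.Injective (covπ X) := LinearMap.ker_eq_bot.mp hKbot
  exact Module.Projective.of_equiv (LinearEquiv.ofBijective (covπ X) ⟨hinj, (cov_spec X).2.2.1⟩)

theorem proj_of_chain_proj (hR : ∀ n, ∀ x : Ext M.1 (ModuleCat.of R R) (n + 1), x = 0) :
    ∀ i, Module.Projective R (chain M i).1 → Module.Projective R M.1 := by
  intro i
  induction i with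
  | zero => exact fun h => h
  | succ i ih =>
    intro h
    apply ih
    apply proj_of_ext_next
    exact chain_ext_proj M hR (chain M (i + 1)).1 i 0

theorem chain_nontrivial (hR : ∀ n, ∀ x : Ext M.1 (ModuleCat.of R R) (n + 1), x = 0)
    (hnp : ¬ Module.Projective R M.1) (i : ℕ) : Nontrivial (chain M i).1 := by
  by_contra hcon
  rw [not_nontrivial_iff_subsingleton] at hcon
  exact hnp (proj_of_chain_proj M hR i inferInstance)

theorem chain_JJ (hJ : Ring.jacobson R ^ 3 = ⊥) (i : ℕ) :
    ∀ r ∈ Ring.jacobson R, ∀ s ∈ Ring.jacobson R, ∀ x : (chain M (i + 1)).1, r • s • x = 0 := by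
  intro r hr s hs x
  have hgen : ∀ y ∈ (Ring.jacobson R • ⊤ : Submodule R (covP (chain M i))), r • s • y = 0 := by
    intro y hy
    induction hy using Submodule.smul_induction_on' with
    | smul t ht p _ =>
      have h3 : r * s * t ∈ Ring.jacobson R ^ 3 := by
        rw [Submodule.pow_succ, Submodule.pow_succ, Submodule.pow_one]
        exact Ideal.mul_mem_mul (Ideal.mul_mem_mul hr hs) ht
      rw [hJ, Submodule.mem_bot] at h3
      rw [smul_smul, smul_smul, h3, zero_smul]
    | add x _ y _ hx hy => rw [smul_add, smul_add, hx, hy, add_zero]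
  have hx : (x : LinearMap.ker (covπ (chain M i))).1 ∈
      (Ring.jacobson R • ⊤ : Submodule R (covP (chain M i))) :=
    (cov_spec (chain M i)).2.2.2 (x : LinearMap.ker (covπ (chain M i))).2
  exact Subtype.ext (hgen _ hx)

end cover

/-- **The Auslander-Reiten conjecture for Artin algebras with radical cube zero.** -/
theorem main_theorem {k : Type v} [CommRing k] [IsArtinianRing k] [Algebra k R]
    [Module.Finite k R] (hJ : Ring.jacobson R ^ 3 = ⊥)
    (M : ModuleCat.{u} R) [Module.Finite R M]
    (hM : ∀ n, ∀ x : Ext M M (n + 1), x = 0)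
    (hR : ∀ n, ∀ x : Ext M (ModuleCat.of R R) (n + 1), x = 0) :
    Module.Projective R M := by
  have hart : IsArtinianRing R := isArtinian_of_tower k (inferInstance : IsArtinian k R)
  by_contra hnp
  let M' : FinMod R := ⟨M, inferInstance⟩
  let _ : ∀ i, Module k (chain M' (i + 1)).1 := fun i => Module.compHom _ (algebraMap k R)
  have : ∀ i, IsScalarTower k R (chain M' (i + 1)).1 :=
    fun i => IsScalarTower.of_algebraMap_smul (fun _ _ => rfl)
  refine count_contra k (fun i => (chain M' (i + 1)).1) (fun i => covP (chain M' (i + 1)))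
    (fun i => (LinearMap.ker (covπ (chain M' (i + 1)))).subtype)
    (fun i => covπ (chain M' (i + 1)))
    (fun i => (cov_spec (chain M' (i + 1))).2.2.1) ?_ ?_ (fun i => chain_JJ M' hJ i) ?_
    (fun i => chain_nontrivial M' hR hnp (i + 1))
  · intro i
    exact LinearMap.exact_subtype_ker_map _
  · intro i x
    exact (cov_spec (chain M' (i + 1))).2.2.2 x.2
  · intro i l hil f
    exact extendL (chain M' (i + 1)) (chain M' (l + 1)).1
      (chain_ext_chain M' hR hM (l + 1) (i + 1) 0 (by omega)) f

end Vale.Agent.P195
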