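import Mathlib
import Vale.Agent.P195.Main
import Vale.Agent.P195.LocalCore

/-!
# Local Artin algebras with radical cube zero: `Ext¹(M, M) = 0 = Ext²(M, R)` forces projectivity
-/

open CategoryTheory Abelian

universe u v

namespace Vale.Agent.P195

variable {R : Type u} [Ring R]

theorem extend_of_ext (X : ModuleCat.{u} R) (h : ∀ x : Ext X X 1, x = 0)
    (t : ℕ) (π : (Fin t → R) →ₗ[R] X) (hπ : Function.Surjective π)
    (f : LinearMap.ker π →ₗ[R] X) :
    ∃ g : (Fin t → R) →ₗ[R] X, g.comp (LinearMap.ker π).subtype = f := by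
  obtain ⟨g, hg⟩ := ext_extend (LinearMap.shortExact_shortComplexKer hπ) X h (ModuleCat.ofHom f)
  refine ⟨g.hom, ?_⟩
  have := congrArg ModuleCat.Hom.hom hg
  exact this

theorem local_main {k : Type v} [CommRing k] [IsArtinianRing k] [Algebra k R]
    [Module.Finite k R] [IsLocalRing R] (hJ : Ring.jacobson R ^ 3 = ⊥)
    (M : ModuleCat.{u} R) [Module.Finite R M]
    (hM : ∀ x : Ext M M 1, x = 0)
    (hR : ∀ x : Ext M (ModuleCat.of R R) 2, x = 0) :
    Module.Projective R M := by
  have hart : IsArtinianRing R := isArtinian_of_tower k (inferInstance : IsArtinian k R)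
  by_contra hnp
  let M' : FinMod R := ⟨M, inferInstance⟩
  let X : FinMod R := nextMod M'
  have hXX : ∀ x : Ext X.1 X.1 1, x = 0 := fun x =>
    shiftL M' X.1 0 (fun y => shiftR M' M 1 hM
      (fun z => ext_proj_eq_zero M (covP M') 2 hR z) y) x
  have hnt : Nontrivial X.1 := by
    by_contra hcon
    rw [not_nontrivial_iff_subsingleton] at hcon
    apply hnp
    have hKbot : LinearMap.ker (covπ M') = ⊥ := by
      rw [eq_bot_iff]
      intro x hx
      have : (⟨x, hx⟩ : LinearMap.ker (covπ M')) = 0 := hcon.elim _ _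
      exact congrArg Subtype.val this
    have hinj : Function.Injective (covπ M') := LinearMap.ker_eq_bot.mp hKbot
    exact Module.Projective.of_equiv
      (LinearEquiv.ofBijective (covπ M') ⟨hinj, (cov_spec M').2.2.1⟩)
  have hJJ : ∀ r ∈ Ring.jacobson R, ∀ s ∈ Ring.jacobson R, ∀ x : X.1, r • s • x = 0 :=
    chain_JJ M' hJ 0
  let _ : Module k X.1 := Module.compHom _ (algebraMap k R)
  have : IsScalarTower k R X.1 := IsScalarTower.of_algebraMap_smul (fun _ _ => rfl)
  have hext := extend_of_ext X.1 hXX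
  have hmem : ∀ x : LinearMap.ker (covπ M'), x.1 ∈ (Ring.jacobson R • ⊤ : Submodule R (covP M')) :=
    fun x => (cov_spec M').2.2.2 x.2
  by_cases hne : (Ring.jacobson R • ⊤ : Submodule R X.1) = ⊥
  · have hJX : ∀ r ∈ Ring.jacobson R, ∀ x : X.1, r • x = 0 := by
      intro r hr x
      have : r • x ∈ (Ring.jacobson R • ⊤ : Submodule R X.1) :=
        Submodule.smul_mem_smul hr trivial
      rwa [hne, Submodule.mem_bot] at this
    have hJ0 : Ring.jacobson R = ⊥ := local_rad_zero k X.1 hext hJX
    obtain ⟨x, hx⟩ := exists_ne (0 : X.1)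
    apply hx
    have h1 := hmem x
    rw [hJ0, Submodule.bot_smul, Submodule.mem_bot] at h1
    exact Subtype.ext h1
  · have hJ2 : Ring.jacobson R ^ 2 = ⊥ := local_sq_zero k hJ X.1 hJJ hext hne
    apply hne
    rw [eq_bot_iff, Submodule.smul_le]
    intro r hr x _
    rw [Submodule.mem_bot]
    have h1 := smul_mem_sq r hr (x : LinearMap.ker (covπ M')).1 (hmem x)
    rw [hJ2, Submodule.bot_smul, Submodule.mem_bot] at h1
    exact Subtype.ext h1

end Vale.Agent.P195
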