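import Mathlib

/-!
# The rank argument, bounded version
-/

namespace Vale.Agent.P195

theorem rank_contra_bdd {N : ℕ} (n h h' : ℕ → Fin N → ℚ)
    (hzero : ∀ i l, l < i → i ≤ 2 * N → ∑ β, n i β * h l β = ∑ β, n (i + 1) β * h' l β)
    (hpos : ∀ l, l ≤ 2 * N → ∑ β, n (l + 1) β * h' l β < ∑ β, n l β * h l β) : False := by
  let w : Fin (2 * N + 1) → (Fin N → ℚ) × (Fin N → ℚ) := fun i => (n i, n (i + 1))
  have hli : LinearIndependent ℚ w := by
    rw [Fintype.linearIndependent_iff]
    intro g hg
    have hg1 : ∀ β, ∑ i, g i * n i β = 0 := by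
      intro β
      have := congrArg (fun p : (Fin N → ℚ) × (Fin N → ℚ) => p.1 β) hg
      simpa [w, Prod.fst_sum, Finset.sum_apply] using this
    have hg2 : ∀ β, ∑ i, g i * n (i + 1) β = 0 := by
      intro β
      have := congrArg (fun p : (Fin N → ℚ) × (Fin N → ℚ) => p.2 β) hg
      simpa [w, Prod.snd_sum, Finset.sum_apply] using this
    have hB : ∀ l : ℕ, ∑ i : Fin (2 * N + 1),
        g i * (∑ β, n i β * h l β - ∑ β, n (i + 1) β * h' l β) = 0 := by
      intro l
      have e1 : ∑ i : Fin (2 * N + 1), g i * ∑ β, n i β * h l β = 0 := by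
        calc ∑ i : Fin (2 * N + 1), g i * ∑ β, n i β * h l β
            = ∑ β, (∑ i : Fin (2 * N + 1), g i * n i β) * h l β := by
              simp_rw [Finset.mul_sum, Finset.sum_mul]
              rw [Finset.sum_comm]
              simp_rw [mul_assoc]
          _ = 0 := by simp [hg1]
      have e2 : ∑ i : Fin (2 * N + 1), g i * ∑ β, n (i + 1) β * h' l β = 0 := by
        calc ∑ i : Fin (2 * N + 1), g i * ∑ β, n (i + 1) β * h' l β
            = ∑ β, (∑ i : Fin (2 * N + 1), g i * n (i + 1) β) * h' l β := by
              simp_rw [Finset.mul_sum, Finset.sum_mul]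
              rw [Finset.sum_comm]
              simp_rw [mul_assoc]
          _ = 0 := by simp [hg2]
      simp_rw [mul_sub]
      rw [Finset.sum_sub_distrib, e1, e2, sub_zero]
    have key : ∀ (m : ℕ) (l : Fin (2 * N + 1)), l.val = m → g l = 0 := by
      intro m
      induction m using Nat.strong_induction_on with
      | _ m ih =>
        intro l hl
        have hs := hB l
        rw [Finset.sum_eq_single l] at hs
        · have hne : ∑ β, n l β * h l β - ∑ β, n (l + 1) β * h' l β ≠ 0 :=
            (sub_pos.mpr (hpos l (by have := l.2; omega))).ne'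
          exact (mul_eq_zero.mp hs).resolve_right hne
        · intro i _ hil
          rcases lt_or_gt_of_ne (fun h => hil (Fin.ext h) : i.val ≠ l.val) with hlt | hgt
          · rw [ih i.val (hl ▸ hlt) i rfl, zero_mul]
          · rw [hzero i l hgt (by have := i.2; omega), sub_self, mul_zero]
        · intro hl'
          exact absurd (Finset.mem_univ l) hl'
    intro i
    exact key i.val i rfl
  have hcard := hli.fintype_card_le_finrank
  simp at hcard
  omega

end Vale.Agent.P195
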