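import Mathlib
import Vale.Agent.P195.Cover
import Vale.Agent.P195.Count
import Vale.Agent.P195.Simples
import Vale.Agent.P195.Rank2

/-!
# The counting contradiction, bounded version
-/

universe u v

namespace Vale.Agent.P195

variable (k : Type v) [CommRing k] {R : Type u} [Ring R] [Algebra k R]

theorem count_contra_bdd [IsArtinianRing k] [Module.Finite k R] [IsArtinianRing R]
    {N : ℕ} (L : Fin N → ModuleCat.{u} R) (hLs : ∀ β, IsSimpleModule R (L β))
    (hL : ∀ (S : Type u) [AddCommGroup S] [Module R S] [IsSimpleModule R S],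
        ∃ β, Nonempty (S ≃ₗ[R] L β))
    (X P : ℕ → Type u) [∀ i, AddCommGroup (X i)] [∀ i, Module R (X i)] [∀ i, Module k (X i)]
    [∀ i, IsScalarTower k R (X i)] [∀ i, Module.Finite R (X i)]
    [∀ i, AddCommGroup (P i)] [∀ i, Module R (P i)] [∀ i, Module.Projective R (P i)]
    (ι : ∀ i, X (i + 1) →ₗ[R] P i) (π : ∀ i, P i →ₗ[R] X i)
    (hπ : ∀ i, Function.Surjective (π i)) (hex : ∀ i, Function.Exact (ι i) (π i))
    (hle : ∀ i x, ι i x ∈ (Ring.jacobson R • ⊤ : Submodule R (P i)))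
    (hJJ : ∀ i, ∀ r ∈ Ring.jacobson R, ∀ s ∈ Ring.jacobson R, ∀ x : X i, r • s • x = 0)
    (hext : ∀ i l, l ≤ i → i ≤ 2 * N →
      ∀ f : X (i + 1) →ₗ[R] X l, ∃ g : P i →ₗ[R] X l, g.comp (ι i) = f)
    (hne : ∀ i, i ≤ 2 * N → Nontrivial (X i)) : False := by
  let JX : ∀ l, Submodule R (X l) := fun l => Ring.jacobson R • ⊤
  have hWsub : ∀ l, ∀ r ∈ Ring.jacobson R, ∀ w : JX l, r • w = 0 := by
    intro l r hr w
    apply Subtype.ext
    rw [Submodule.coe_smul, Submodule.coe_zero]
    have hgen : ∀ y ∈ (Ring.jacobson R • ⊤ : Submodule R (X l)), r • y = 0 := by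
      intro y hy
      induction hy using Submodule.smul_induction_on' with
      | smul s hs x _ => exact hJJ l r hr s hs x
      | add x _ y _ hx hy => rw [smul_add, hx, hy, add_zero]
    exact hgen _ w.2
  have hWquot : ∀ l, ∀ r ∈ Ring.jacobson R, ∀ w : X l ⧸ JX l, r • w = 0 :=
    fun l => jac_smul_quot (X l)
  have hker : ∀ i, LinearMap.ker (π i) ≤ Ring.jacobson R • ⊤ := by
    intro i p hp
    obtain ⟨x, rfl⟩ := (hex i p).mp hp
    exact hle i x
  have hland : ∀ i l, l ≤ i → i ≤ 2 * N →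
      ∀ (f : X (i + 1) →ₗ[R] X l) (x : X (i + 1)), f x ∈ JX l := by
    intro i l hil hiN f x
    obtain ⟨g, rfl⟩ := hext i l hil hiN f
    have h1 : g (ι i x) ∈ (Ring.jacobson R • ⊤ : Submodule R (P i)).map g :=
      Submodule.mem_map_of_mem (hle i x)
    rw [Submodule.map_smul''] at h1
    exact (smul_mono_right (Ring.jacobson R) (le_top : Submodule.map g ⊤ ≤ ⊤)) h1
  let H : ℕ → ℕ → ℕ∞ := fun i l => Module.length k (X i →ₗ[R] X l)
  let a : ℕ → ℕ → ℕ∞ := fun i l => Module.length k (X i →ₗ[R] (X l ⧸ JX l))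
  let b : ℕ → ℕ → ℕ∞ := fun i l => Module.length k (X i →ₗ[R] JX l)
  have hHfin : ∀ i l, H i l ≠ ⊤ := fun i l => length_hom_ne_top k (X i) (X l)
  have hbfin : ∀ i l, b i l ≠ ⊤ := fun i l => length_hom_ne_top k (X i) (JX l)
  have E12 : ∀ i l, l ≤ i → i ≤ 2 * N → H i l + H (i + 1) l = b i l + a i l := by
    intro i l hil hiN
    have e1 := length_hom_add k (Y := X l) (ι i) (π i) (hπ i) (hex i) (hext i l hil hiN)
    have e2 := length_hom_proj k (P := P i) (JX l)
    have e3 := length_hom_cover k (W := JX l) (π i) (hπ i) (hker i) (hWsub l)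
    have e4 := length_hom_cover k (W := X l ⧸ JX l) (π i) (hπ i) (hker i) (hWquot l)
    rw [e3, e4] at e2
    rw [e1] at e2
    exact e2
  have E3 : ∀ i l, l ≤ i → i ≤ 2 * N → H (i + 1) l = b (i + 1) l := by
    intro i l hil hiN
    exact length_hom_sub k (JX l) (hland i l hil hiN)
  have E4 : ∀ l, l ≤ 2 * N → b l l < H l l := by
    intro l hl
    have := hne l hl
    exact length_hom_lt k (JX l) (Submodule.jacobson_smul_lt_top ⊤).ne (hHfin l l)
  have Ezero : ∀ i l, l < i → i ≤ 2 * N → a i l = b (i + 1) l := by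
    intro i l hil hiN
    obtain ⟨i', rfl⟩ : ∃ i', i = i' + 1 := ⟨i - 1, by omega⟩
    have h1 := E12 (i' + 1) l (by omega) hiN
    rw [E3 i' l (by omega) (by omega), E3 (i' + 1) l (by omega) hiN] at h1
    exact (ENat.add_right_injective_of_ne_top (hbfin (i' + 1) l) h1).symm
  have Epos : ∀ l, l ≤ 2 * N → b (l + 1) l < a l l := by
    intro l hl
    have h1 := E12 l l le_rfl hl
    rw [E3 l l le_rfl hl] at h1
    by_contra hcon
    push Not at hcon
    have h2 : b l l + a l l < H l l + b (l + 1) l :=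
      ENat.add_lt_add_of_lt_of_le (ne_top_of_le_ne_top (hbfin _ _) hcon) (E4 l hl) hcon
    rw [h1] at h2
    exact lt_irrefl _ h2
  have hmult := fun i => exists_mult k L hL (X i)
  choose n hn using hmult
  have hLfin : ∀ β, Module.Finite R (L β) := fun β => by
    have := hLs β
    infer_instance
  let h : ℕ → Fin N → ℕ := fun l β => (Module.length k (L β →ₗ[R] (X l ⧸ JX l))).toNat
  let h' : ℕ → Fin N → ℕ := fun l β => (Module.length k (L β →ₗ[R] JX l)).toNat
  have hh : ∀ l β, Module.length k (L β →ₗ[R] (X l ⧸ JX l)) = (h l β : ℕ∞) := fun l β =>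
    (ENat.natCast_toNat (length_hom_ne_top k (L β) (X l ⧸ JX l))).symm
  have hh' : ∀ l β, Module.length k (L β →ₗ[R] JX l) = (h' l β : ℕ∞) := fun l β =>
    (ENat.natCast_toNat (length_hom_ne_top k (L β) (JX l))).symm
  have ha : ∀ i l, a i l = ((∑ β, n i β * h l β : ℕ) : ℕ∞) := by
    intro i l
    have := hn i (X l ⧸ JX l) (hWquot l)
    simp only [a]
    rw [this]
    simp_rw [hh]
    push_cast
    rfl
  have hb : ∀ i l, b i l = ((∑ β, n i β * h' l β : ℕ) : ℕ∞) := by
    intro i l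
    have := hn i (JX l) (hWsub l)
    simp only [b]
    rw [this]
    simp_rw [hh']
    push_cast
    rfl
  refine rank_contra_bdd (N := N) (fun i β => (n i β : ℚ)) (fun l β => (h l β : ℚ))
    (fun l β => (h' l β : ℚ)) ?_ ?_
  · intro i l hil hiN
    have := Ezero i l hil hiN
    rw [ha, hb] at this
    have h2 : (∑ β, n i β * h l β : ℕ) = ∑ β, n (i + 1) β * h' l β := by exact_mod_cast this
    exact_mod_cast h2
  · intro l hl
    have := Epos l hl
    rw [ha, hb] at this
    have h2 : (∑ β, n (l + 1) β * h' l β : ℕ) < ∑ β, n l β * h l β := by exact_mod_cast this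
    exact_mod_cast h2

end Vale.Agent.P195
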