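import Mathlib
import Vale.Agent.P195.Main
import Vale.Agent.P195.Core2

/-!
# Bounded version: only finitely many Ext groups are needed
-/

open CategoryTheory Abelian

universe u v

namespace Vale.Agent.P195

variable {R : Type u} [Ring R] [IsArtinianRing R] (M : FinMod R)

theorem chain_shift (Y : ModuleCat.{u} R) :
    ∀ (i n m : ℕ), m = n + 1 + i → (∀ x : Ext M.1 Y m, x = 0) →
      ∀ x : Ext (chain M i).1 Y (n + 1), x = 0 := by
  intro i
  induction i with
  | zero =>
    intro n m hm h
    subst hm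
    exact h
  | succ i ih =>
    intro n m hm h x
    exact shiftL (chain M i) Y n (ih (n + 1) m (by omega) h) x

theorem chain_shift_proj (Q : ModuleCat.{u} R) [Module.Finite R Q] [Module.Projective R Q]
    (i n m : ℕ) (hm : m = n + 1 + i) (h : ∀ x : Ext M.1 (ModuleCat.of R R) m, x = 0) :
    ∀ x : Ext (chain M i).1 Q (n + 1), x = 0 :=
  fun x => ext_proj_eq_zero _ Q (n + 1) (chain_shift M _ i n m hm h) x

theorem chain_ext_chain_bdd (a b : ℕ)
    (hR : ∀ m, 1 ≤ m → m ≤ b → ∀ x : Ext M.1 (ModuleCat.of R R) m, x = 0)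
    (hM : ∀ m, 1 ≤ m → m ≤ a → ∀ x : Ext M.1 M.1 m, x = 0) :
    ∀ l i n, l < n + 1 + i → n + 1 + i ≤ b → n + 1 + i - l ≤ a →
      ∀ x : Ext (chain M i).1 (chain M l).1 (n + 1), x = 0 := by
  intro l
  induction l with
  | zero =>
    intro i n _ _ h3 x
    exact chain_shift M M.1 i n (n + 1 + i) rfl (hM _ (by omega) (by omega)) x
  | succ l ih =>
    have step : ∀ i n, l + 1 < n + 2 + i → n + 2 + i ≤ b → n + 2 + i - (l + 1) ≤ a →
        ∀ x : Ext (chain M i).1 (chain M (l + 1)).1 (n + 2), x = 0 := by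
      intro i n h1 h2 h3 x
      exact shiftR (chain M l) (chain M i).1 (n + 1) (ih i n (by omega) (by omega) (by omega))
        (chain_shift_proj M (covP (chain M l)) i (n + 1) (n + 2 + i) (by omega)
          (hR _ (by omega) h2)) x
    intro i n h1 h2 h3 x
    cases n with
    | succ n => exact step i n (by omega) (by omega) (by omega) x
    | zero =>
      obtain ⟨i', rfl⟩ : ∃ i', i = i' + 1 := ⟨i - 1, by omega⟩
      exact shiftL (chain M i') (chain M (l + 1)).1 0
        (step i' 0 (by omega) (by omega) (by omega)) x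

theorem proj_of_chain_proj_bdd (b : ℕ)
    (hR : ∀ m, 1 ≤ m → m ≤ b → ∀ x : Ext M.1 (ModuleCat.of R R) m, x = 0) :
    ∀ i, i ≤ b → Module.Projective R (chain M i).1 → Module.Projective R M.1 := by
  intro i
  induction i with
  | zero => exact fun _ h => h
  | succ i ih =>
    intro hi h
    apply ih (by omega)
    apply proj_of_ext_next
    exact chain_shift_proj M (chain M (i + 1)).1 i 0 (i + 1) (by omega) (hR _ (by omega) hi)

theorem chain_nontrivial_bdd (b : ℕ)
    (hR : ∀ m, 1 ≤ m → m ≤ b → ∀ x : Ext M.1 (ModuleCat.of R R) m, x = 0)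
    (hnp : ¬ Module.Projective R M.1) (i : ℕ) (hi : i ≤ b) : Nontrivial (chain M i).1 := by
  by_contra hcon
  rw [not_nontrivial_iff_subsingleton] at hcon
  exact hnp (proj_of_chain_proj_bdd M b hR i hi inferInstance)

end Vale.Agent.P195

namespace Vale.Agent.P195

variable {R : Type u} [Ring R]

/-- Bounded version of the main theorem. -/
theorem main_theorem_bdd {k : Type v} [CommRing k] [IsArtinianRing k] [Algebra k R]
    [Module.Finite k R] (hJ : Ring.jacobson R ^ 3 = ⊥)
    {N : ℕ} (L : Fin N → ModuleCat.{u} R) (hLs : ∀ β, IsSimpleModule R (L β))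
    (hL : ∀ (S : Type u) [AddCommGroup S] [Module R S] [IsSimpleModule R S],
        ∃ β, Nonempty (S ≃ₗ[R] L β))
    (M : ModuleCat.{u} R) [Module.Finite R M]
    (hM : ∀ m, 1 ≤ m → m ≤ 2 * N + 1 → ∀ x : Ext M M m, x = 0)
    (hR : ∀ m, 1 ≤ m → m ≤ 2 * N + 2 → ∀ x : Ext M (ModuleCat.of R R) m, x = 0) :
    Module.Projective R M := by
  have hart : IsArtinianRing R := isArtinian_of_tower k (inferInstance : IsArtinian k R)
  by_contra hnp
  let M' : FinMod R := ⟨M, inferInstance⟩
  let _ : ∀ i, Module k (chain M' (i + 1)).1 := fun i => Module.compHom _ (algebraMap k R)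
  have : ∀ i, IsScalarTower k R (chain M' (i + 1)).1 :=
    fun i => IsScalarTower.of_algebraMap_smul (fun _ _ => rfl)
  refine count_contra_bdd k L hLs hL
    (fun i => (chain M' (i + 1)).1) (fun i => covP (chain M' (i + 1)))
    (fun i => (LinearMap.ker (covπ (chain M' (i + 1)))).subtype)
    (fun i => covπ (chain M' (i + 1)))
    (fun i => (cov_spec (chain M' (i + 1))).2.2.1) ?_ ?_ (fun i => chain_JJ M' hJ i) ?_
    (fun i hi => chain_nontrivial_bdd M' (2 * N + 2) hR hnp (i + 1) (by omega))
  · intro i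
    exact LinearMap.exact_subtype_ker_map _
  · intro i x
    exact (cov_spec (chain M' (i + 1))).2.2.2 x.2
  · intro i l hil hiN f
    exact extendL (chain M' (i + 1)) (chain M' (l + 1)).1
      (chain_ext_chain_bdd M' (2 * N + 1) (2 * N + 2) hR hM (l + 1) (i + 1) 0
        (by omega) (by omega) (by omega)) f

end Vale.Agent.P195
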