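import Mathlib
import Vale.Agent.P195.Main2
import Vale.Agent.P195.LocalMain

/-!
# Condition (AR) in the form `Ext^i(M, M ⊕ R) = 0`
-/

open CategoryTheory Abelian

universe u v

namespace Vale.Agent.P195

variable {R : Type u} [Ring R]

/-- `Ext` into a retract vanishes if `Ext` into the ambient object does. -/
theorem ext_retract {X Y Z : ModuleCat.{u} R} (i : Y ⟶ Z) (p : Z ⟶ Y) (h : i ≫ p = 𝟙 Y) (n : ℕ)
    (hz : ∀ x : Ext X Z n, x = 0) (x : Ext X Y n) : x = 0 := by
  have h1 : x = x.comp (Ext.mk₀ (𝟙 Y)) (add_zero n) := by simp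
  rw [h1, ← h, ← Ext.mk₀_comp_mk₀, ← Ext.comp_assoc_of_second_deg_zero,
    hz (x.comp (Ext.mk₀ i) _), Ext.zero_comp]

theorem ext_left_of_prod (M : ModuleCat.{u} R) (n : ℕ)
    (hz : ∀ x : Ext M (ModuleCat.of R (M × R)) n, x = 0) (x : Ext M M n) : x = 0 :=
  ext_retract (Z := ModuleCat.of R (M × R)) (ModuleCat.ofHom (LinearMap.inl R M R))
    (ModuleCat.ofHom (LinearMap.fst R M R)) (by ext; rfl) n hz x

theorem ext_right_of_prod (M : ModuleCat.{u} R) (n : ℕ)
    (hz : ∀ x : Ext M (ModuleCat.of R (M × R)) n, x = 0) (x : Ext M (ModuleCat.of R R) n) :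
    x = 0 :=
  ext_retract (Z := ModuleCat.of R (M × R)) (ModuleCat.ofHom (LinearMap.inr R M R))
    (ModuleCat.ofHom (LinearMap.snd R M R)) (by ext; rfl) n hz x

theorem ext_subsingleton_of_projective (M Y : ModuleCat.{u} R) [Module.Projective R M] (i : ℕ)
    (hi : 1 ≤ i) : Subsingleton (Ext M Y i) := by
  obtain ⟨j, rfl⟩ : ∃ j, i = j + 1 := ⟨i - 1, by omega⟩
  have : Projective M := inferInstance
  exact Ext.subsingleton_of_projective M Y j

end Vale.Agent.P195
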